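import Vale.Agent.P290.R2.H596.Fin2
import Vale.Agent.P290.R2.H428.Conn
import Vale.Agent.P290.R2.H514.Jac
import Vale.Agent.P290.R2.H489.FibresJet
import Vale.Agent.P290.R2.H514.Lower
import Vale.Agent.P290.R2.H69.Comp
import Vale.Agent.P290.R2.H236.Jet

/-! Assembly of the second clause. -/

open Set Filter Metric
open scoped Topology

namespace Vale.Agent.P290.R2.H596

open Vale.Agent.P290 Vale.Agent.P290.K Vale.Agent.P290.H580 Vale.Agent.P290.H805

theorem stFibresJet : StFibresJet :=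
  H489.fibresJet H514.stJac (H236.nearbyJet' stLocal' okaV surj interp)

theorem final2' (hC : StConst) {T E : Type} [TopologicalSpace T] [TopologicalSpace E]
    (F : Family T E)
    (hp : IsProperMap F.p) (vol : E → T × C2 → ℂ) (hvol : RelForm F vol)
    (t₀ : T) (h2 : T2Space (Fib F t₀)) (hc : ConnectedSpace (Fib F t₀))
    (hO : All.IsOka (Fib F t₀)) (X : All.K3)
    (hX : t₀ ∈ closure {t | ∃ b : Fib F t → X.X, (∀ y, All.Hol b y) ∧ Function.Surjective b})
    (k : ℕ) (z : Fin (k + 1) → C2) (hz : Function.Injective z) (x : Fin (k + 1) → X.X)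
    (d : Fin (k + 1) → ℂ) (S : Set C2) (hS : Bornology.IsBounded S) :
    ∃ g : C2 → X.X, (∀ y ∈ S, All.Hol g y) ∧ ∀ j, All.Hol g (z j) ∧ g (z j) = x j ∧
      X.vol (chartAt C2 (x j)) (chartAt C2 (x j) (x j)) *
        (fderiv ℂ (fun y => chartAt C2 (x j) (g y)) (z j)).det = d j :=
  part2 (fun T E _ _ F hp t₀ h => H428.conn T E F hp t₀ h) stFibresJet hC H514.lower H69.comp F hp
    vol hvol t₀ h2 hc hO X hX k z hz x d S hS

end Vale.Agent.P290.R2.H596
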