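import Vale.Agent.P290.R2.H596.Fin4
import Vale.Agent.P290.R2.H455.SymExist
import Vale.Agent.P290.R2.H69.Flat

/-! The third clause. -/

open Set Filter Metric
open scoped Topology

namespace Vale.Agent.P290.R2.H596

open Vale.Agent.P290 Vale.Agent.P290.K Vale.Agent.P290.H580 Vale.Agent.P290.H805

theorem final3 {T E : Type} [TopologicalSpace T] [TopologicalSpace E] (F : Family T E)
    (hp : IsProperMap F.p) (vol : E → T × C2 → ℂ) (hvol : RelForm F vol)
    (t₀ : T) (h2 : T2Space (Fib F t₀)) (hc : ConnectedSpace (Fib F t₀))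
    (hπ : ∀ x : Fib F t₀, ∃ (C : All.RS) (π : Fib F t₀ → C.C), (∀ y, All.HolC π y) ∧
      ¬ All.Critical π x) (X : All.K3)
    (hX : t₀ ∈ closure {t | ∃ b : Fib F t → X.X, (∀ y, All.Hol b y) ∧ Function.Surjective b})
    (x : X.X) (S : Set C2) (hS : Bornology.IsBounded S) :
    ∃ g : C2 → X.X, g 0 = x ∧ ∀ y ∈ S, All.Hol g y ∧
      X.vol (chartAt C2 (g y)) (chartAt C2 (g y) (g y)) *
        (fderiv ℂ (fun v => chartAt C2 (g y) (g v)) y).det = 1 :=
  final3' H69.flat H455.symExist F hp vol hvol t₀ h2 hc hπ X hX x S hS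

end Vale.Agent.P290.R2.H596
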