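import Vale.Agent.P290.R2.H596.Spec

/-! Interpolation for the fibres of a proper family of surfaces: from the tuples near a given
tuple of the central fibre to all tuples of the nearby fibres. -/

open Set Filter Metric
open scoped Topology

namespace Vale.Agent.P290.R2.H596

open Vale.Agent.P290 Vale.Agent.P290.K Vale.Agent.P290.H580 Vale.Agent.P290.H805

/-- the fibres of a proper family are compact -/
theorem compact_fib {T E : Type} [TopologicalSpace T] [TopologicalSpace E] (F : Family T E)
    (hp : IsProperMap F.p) (t : T) : CompactSpace (Fib F t) := by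
  refine ⟨?_⟩
  rw [isInducing_val.isCompact_iff, image_univ]
  have h1 : range (Fib.val : Fib F t → E) = F.p ⁻¹' {t} := by
    ext x
    constructor
    · rintro ⟨y, rfl⟩
      exact y.prop
    · intro hx
      exact ⟨⟨x, hx⟩, rfl⟩
  rw [h1]
  exact hp.isCompact_preimage isCompact_singleton

theorem fibres (hN : StNearby) : StFibres := by
  intro T E _ _ F hp t₀ hT hC hO m k z hz ρ
  have hK : CompactSpace (Fib F t₀) := compact_fib F hp t₀
  have hP : IsClosedMap fun (x : Fin (k + 1) → E) (j : Fin (k + 1)) => F.p (x j) :=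
    (IsProperMap.pi_map fun _ => hp).isClosedMap
  have hQ := hN T E F t₀ hO m k z hz ρ
  have hU : IsClosed ((fun (x : Fin (k + 1) → E) (j : Fin (k + 1)) => F.p (x j)) ''
      (interior {x' : Fin (k + 1) → E | ∀ t, (∀ j, F.p (x' j) = t) → ∃ g : (Fin m → ℂ) → E,
        (∀ y ∈ closedBall (0 : Fin m → ℂ) ρ, FH F t g y) ∧ ∀ j, g (z j) = x' j})ᶜ) :=
    hP _ isOpen_interior.isClosed_compl
  have hc : Continuous fun (t : T) (_ : Fin (k + 1)) => t := continuous_pi fun _ => continuous_id
  have h0 : (fun _ : Fin (k + 1) => t₀) ∈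
      ((fun (x : Fin (k + 1) → E) (j : Fin (k + 1)) => F.p (x j)) ''
      (interior {x' : Fin (k + 1) → E | ∀ t, (∀ j, F.p (x' j) = t) → ∃ g : (Fin m → ℂ) → E,
        (∀ y ∈ closedBall (0 : Fin m → ℂ) ρ, FH F t g y) ∧ ∀ j, g (z j) = x' j})ᶜ)ᶜ := by
    rintro ⟨x, hx, hxt⟩
    exact hx (mem_interior_iff_mem_nhds.2 (hQ x fun j => congrFun hxt j))
  filter_upwards [hc.continuousAt.preimage_mem_nhds (hU.isOpen_compl.mem_nhds h0)] with t ht x hx
  by_contra hn
  refine ht ⟨x, fun h => hn (interior_subset h t hx), funext hx⟩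

end Vale.Agent.P290.R2.H596
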