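import Vale.Agent.P290.R2.H596.Spec

/-! R4b: arbitrary values at the nodes, and all nearby values, from the one step statement. -/

open Set Filter Metric
open scoped Topology

namespace Vale.Agent.P290.R2.H596

open Vale.Agent.P290 Vale.Agent.P290.K Vale.Agent.P290.H580 Vale.Agent.P290.H805

variable {T E : Type} [TopologicalSpace T] [TopologicalSpace E]

/-- constant maps -/
theorem gg_const (F : Family T E) (t₀ : T) {k : ℕ} (n : Fin k → ℂ) (q : E) (hq : F.p q = t₀) :
    GG F t₀ n fun _ _ => q := by
  refine ⟨1, one_pos, fun ρ _ _ 𝒪 h𝒪 => ⟨fun _ => q, ?_, ?_⟩⟩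
  · exact Filter.Eventually.of_forall fun z =>
      ⟨Filter.Eventually.of_forall fun _ => hq, continuousAt_const,
        differentiableAt_const _⟩
  · intro j w hw
    exact mem_of_mem_nhds (h𝒪 j w hw)

/-- replacing the nodes one at a time -/
theorem gg_replace (F : Family T E) (t₀ : T) {k : ℕ} (n : Fin k → ℂ)
    (A B : Fin k → (Fin k → C2) → E) (hA : GG F t₀ n A)
    (hstep : ∀ (H : Fin k → (Fin k → C2) → E) (j : Fin k), GG F t₀ n H → H j = A j →
      GG F t₀ n (Function.update H j (B j))) : GG F t₀ n B := by
  classical
  have key : ∀ s : Finset (Fin k), GG F t₀ n (fun j => if j ∈ s then B j else A j) := by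
    intro s
    induction s using Finset.induction_on with
    | empty => simpa using hA
    | insert j s hj ih =>
      have h1 := hstep _ j ih (by simp [hj])
      convert h1 using 1
      funext i
      by_cases hi : i = j
      · subst hi
        simp
      · simp [Finset.mem_insert, hi]
  have h2 := key Finset.univ
  simpa using h2

/-- small balls in the charts -/
theorem exists_radius (F : Family T E) {t₀ : T} {y : E} (hy : F.p y = t₀) :
    ∃ R > (0 : ℝ), ∀ v ∈ ball (F.triv y y).2 (3 * R), (t₀, v) ∈ (F.triv y).target := by
  have h1 : (t₀, (F.triv y y).2) ∈ (F.triv y).target := by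
    have h2 := (F.triv y).map_source (F.mem y)
    have h3 := F.fst y y (F.mem y)
    rw [hy] at h3
    rwa [← h3]
  have hc : Continuous fun v : C2 => (t₀, v) := by fun_prop
  obtain ⟨ε, hε, hb⟩ := Metric.isOpen_iff.1 ((F.triv y).open_target.preimage hc) _ h1
  refine ⟨ε / 3, by positivity, fun v hv => hb ?_⟩
  rwa [show 3 * (ε / 3) = ε by ring] at hv

/-- the inverse chart -/
theorem symm_eq (F : Family T E) {t₀ : T} {y q : E} (hq : F.p q = t₀)
    (hqs : q ∈ (F.triv y).source) : (F.triv y).symm (t₀, (F.triv y q).2) = q := by
  have h3 := F.fst y q hqs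
  rw [hq] at h3
  rw [← h3]
  exact (F.triv y).left_inv hqs

theorem stLocal (hS : StStep) : StLocal := by
  intro T E _ _ F t₀ _ k n hn hinj x hx
  -- constant values at the nodes can be chosen
  have hmove : ∀ (H : Fin k → (Fin k → C2) → E) (j : Fin k) (q q' : Fib F t₀),
      GG F t₀ n (Function.update H j fun _ => q.val) →
      GG F t₀ n (Function.update H j fun _ => q'.val) := by
    intro H j
    have hloc : ∀ y : Fib F t₀, ∃ U : Set (Fib F t₀), U ∈ 𝓝 y ∧ ∀ q ∈ U, ∀ q' ∈ U,
        GG F t₀ n (Function.update H j fun _ => q.val) →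
        GG F t₀ n (Function.update H j fun _ => q'.val) := by
      intro y
      obtain ⟨R, hR, hball⟩ := exists_radius F y.prop
      refine ⟨Fib.val ⁻¹' ((F.triv y.val).source ∩
        (F.triv y.val) ⁻¹' (Prod.snd ⁻¹' ball (F.triv y.val y.val).2 R)), ?_, ?_⟩
      · refine continuous_val.continuousAt.preimage_mem_nhds ?_
        refine ((F.triv y.val).isOpen_inter_preimage (isOpen_ball.preimage continuous_snd)).mem_nhds
          ⟨F.mem y.val, ?_⟩
        exact mem_ball_self hR
      · intro q hq q' hq' hG
        have h1 := hS T E F t₀ k n hn hinj _ hG j y.val (F.triv y.val y.val).2 R hR hball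
          (by rw [Function.update_self]; exact continuousAt_const)
          (by rw [Function.update_self]; exact hq.1)
          (by rw [Function.update_self]; exact hq.2)
          (fun _ => (F.triv y.val q'.val).2) (differentiable_const _) hq'.2
        rw [Function.update_idem] at h1
        have h2 : (fun _ : Fin k → C2 => (F.triv y.val).symm (t₀, (F.triv y.val q'.val).2)) =
            fun _ => q'.val := by
          funext _
          exact symm_eq F q'.prop hq'.1
        rwa [h2] at h1
    intro q q' hq
    set S : Set (Fib F t₀) := {q | GG F t₀ n (Function.update H j fun _ => q.val)} with hSdef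
    have hopen : IsOpen S := by
      rw [isOpen_iff_mem_nhds]
      intro y hy
      obtain ⟨U, hU, h⟩ := hloc y
      exact mem_of_superset hU fun z hz => h y (mem_of_mem_nhds hU) z hz hy
    have hclosed : IsClosed S := by
      rw [← isOpen_compl_iff, isOpen_iff_mem_nhds]
      intro y hy
      obtain ⟨U, hU, h⟩ := hloc y
      exact mem_of_superset hU fun z hz hzS => hy (h z hz y (mem_of_mem_nhds hU) hzS)
    have huniv : S = univ := IsClopen.eq_univ ⟨hclosed, hopen⟩ ⟨q, hq⟩
    have : q' ∈ S := huniv ▸ mem_univ q'
    exact this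
  obtain ⟨x0⟩ : Nonempty (Fib F t₀) := inferInstance
  have hconst : GG F t₀ n fun j _ => x j := by
    refine gg_replace F t₀ n (fun _ _ => x0.val) _ (gg_const F t₀ n _ x0.prop) ?_
    intro H j hH hj
    refine hmove H j x0 ⟨x j, hx j⟩ ?_
    have : Function.update H j (fun _ => x0.val) = H := by
      rw [← hj, Function.update_eq_self]
    rwa [this]
  refine gg_replace F t₀ n (fun j _ => x j) _ hconst ?_
  intro H j hH hj
  obtain ⟨R, hR, hball⟩ := exists_radius F (hx j)
  have h1 := hS T E F t₀ k n hn hinj H hH j (x j) (F.triv (x j) (x j)).2 R hR hball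
    (by rw [hj]; exact continuousAt_const) (by rw [hj]; exact F.mem (x j))
    (by rw [hj]; exact mem_ball_self hR)
    (fun w => (F.triv (x j) (x j)).2 + w j)
    (by
      refine (differentiable_const _).add ?_
      exact differentiable_apply j)
    (by
      simp only [Pi.zero_apply, add_zero]
      exact mem_ball_self hR)
  exact h1

end Vale.Agent.P290.R2.H596
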