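import Vale.Agent.P290.R2.H596.Spec

/-! Gluing of two maps which are close to the same etale tube over the overlap only. -/

open Set Filter Metric
open scoped Topology NNReal ContDiff

namespace Vale.Agent.P290.R2.H596

open Vale.Agent.P290.All Vale.Agent.P290 Vale.Agent.P290.K Vale.Agent.P290.H580
open Vale.Agent.P290.H805 Vale.Agent.P290.H805.Tube

theorem merge : StMerge := by
  intro T E _ _ F V _ _ _ t₀ D A B O gA gB hconv hO hAB hcov σ hσ ε hε
  have hI : IsCompact (A ∩ B) := gA.1.inter gB.1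
  obtain ⟨ρ₁, hρ₁, hs1⟩ := hI.exists_thickening_subset_open hO hAB
  set ρ := min (ρ₁ / 3) σ with hρd
  have hρ : 0 < ρ := by positivity
  have l1 : 3 * ρ ≤ ρ₁ := by
    have : ρ ≤ ρ₁ / 3 := min_le_left _ _
    linarith
  have l2 : ρ ≤ σ := min_le_right _ _
  set ε₁ := min ε ρ with hε₁
  have hε₁0 : 0 < ε₁ := by positivity
  have hε₁1 : ε₁ ≤ ε := min_le_left _ _
  have hε₁2 : ε₁ ≤ ρ := min_le_right _ _
  obtain ⟨δ₁, hδ₁, hns⟩ := ns_path gA gB hconv (W := thickening ρ (A ∩ B)) isOpen_thickening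
    (self_subset_thickening hρ _) hρ ε₁ hε₁0
  set δ := min (δ₁ / 2) (ρ / 8) with hδd
  have hδ : 0 < δ := by positivity
  have m1 : 2 * δ ≤ δ₁ := by
    have : δ ≤ δ₁ / 2 := min_le_left _ _
    linarith
  have m2 : 8 * δ ≤ ρ := by
    have : δ ≤ ρ / 8 := min_le_right _ _
    linarith
  refine ⟨δ, hδ, fun r t A' B' u u' hr hOA hOB hA' hB' hu hu' hcu hcu' => ?_⟩
  set W₂ := thickening (ρ + ρ) (A ∩ B) with hW₂
  have hW₂1 : ∀ y ∈ W₂, ∀ c : C2, ‖c‖ < ρ → sh y c ∈ thickening ρ₁ (A ∩ B) := fun y hy c hc =>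
    thickening_mono (by linarith) _ (sh_mem_thickening hy hc)
  have hW₂0 : W₂ ⊆ thickening ρ₁ (A ∩ B) := thickening_mono (by linarith) _
  obtain ⟨e, he⟩ := D.exists_transition hr (hu.filter_mono (nhdsSet_mono hOA))
    (hu'.filter_mono (nhdsSet_mono hOB)) hδ m2 hcu hcu' (W := W₂) isOpen_thickening
    (fun y hy c hc => hs1 (hW₂1 y hy c hc))
    (fun y hy => hs1 (hW₂0 hy))
    (fun y hy => hcov y (hs1 (hW₂0 hy)))
  -- splitting
  have hq : Differentiable ℂ (fun x : (V × C2) × C2 => sh x.1 x.2) := differentiable_sh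
  have hmem : ∀ x : (V × C2) × C2, x ∈ thickening ρ (A ∩ B) ×ˢ ball (0 : C2) ρ →
      sh x.1 x.2 ∈ W₂ := fun x hx =>
    sh_mem_thickening hx.1 (by simpa using hx.2)
  have hd : DifferentiableOn ℂ (fun x : (V × C2) × C2 => e (sh x.1 x.2))
      (thickening ρ (A ∩ B) ×ˢ ball (0 : C2) ρ) := by
    intro x hx
    exact (DifferentiableAt.comp (g := e) (f := fun x : (V × C2) × C2 => sh x.1 x.2) x
      (he _ (hmem x hx)).1 hq.differentiableAt).differentiableWithinAt
  obtain ⟨α', τ', ⟨Uα, hUα, hAU, hαd, -⟩, ⟨Uτ, hUτ, hBU, hτd, -⟩, h1, h2, h3⟩ :=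
    hns (fun _ x => e (sh x.1 x.2)) (fun _ _ => hd)
      (hd.continuousOn.comp (f := fun x : ℝ × ((V × C2) × C2) => x.2) continuousOn_snd
        fun x hx => hx.2)
      (fun _ _ x hx => (he _ (hmem x hx)).2.1.trans m1)
  have h0I : (0 : ℝ) ∈ Icc (0 : ℝ) 1 := ⟨le_rfl, zero_le_one⟩
  set α : V × C2 → C2 := α' 0 with hα
  set τ : V × C2 → C2 := τ' 0 with hτ
  have hαd' : ∀ y ∈ Uα, DifferentiableAt ℂ α y := fun y hy =>
    (hαd 0 h0I).differentiableAt (hUα.mem_nhds hy)
  have hτd' : ∀ y ∈ Uτ, DifferentiableAt ℂ τ y := fun y hy =>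
    (hτd 0 h0I).differentiableAt (hUτ.mem_nhds hy)
  have hαb : ∀ y ∈ A, ‖α y‖ < ε₁ := h1 0 h0I
  have hτb : ∀ y ∈ B, ‖τ y‖ < ε₁ := h2 0 h0I
  -- the glued map
  obtain ⟨v, hvA, hvB⟩ := exists_glue gA.1 gB.1 (fun y => u (sh y (α y)))
    (fun y => u' (sh y (τ y))) (by
      have e1 : ∀ᶠ y in 𝓝ˢ (A ∩ B), sh y (τ y) ∈ W₂ := by
        rw [eventually_nhdsSet_iff_forall]
        intro y hy
        have hc : ContinuousAt (fun y => sh y (τ y)) y :=
          ContinuousAt.comp (g := fun x : (V × C2) × C2 => sh x.1 x.2)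
            (f := fun y => ((y, τ y) : (V × C2) × C2)) continuous_sh.continuousAt
            (continuousAt_id.prodMk (hτd' y (hBU hy.2)).continuousAt)
        refine hc.eventually (isOpen_thickening.mem_nhds ?_)
        exact sh_mem_thickening (self_subset_thickening hρ _ hy) ((hτb y hy.2).trans_le hε₁2)
      filter_upwards [h3, e1] with y hy hy1
      have h4 : α y - τ y = e (sh y (τ y)) := hy 0 h0I
      have h5 := (he _ hy1).2.2
      rw [sh_sh, ← h4, add_sub_cancel] at h5
      exact h5)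
  refine ⟨v, ?_, fun y hy => ⟨α y, (hαb y hy).trans_le hε₁1, hvA.self_of_nhdsSet hy⟩,
    fun y hy => ⟨τ y, (hτb y hy).trans_le hε₁1, hvB.self_of_nhdsSet hy⟩⟩
  · rw [nhdsSet_union, eventually_sup]
    constructor
    · have e1 : ∀ᶠ y in 𝓝ˢ A, FH F t (fun y => u (sh y (α y))) y := by
        rw [eventually_nhdsSet_iff_forall]
        intro y hy
        have hc : ContinuousAt (fun y => sh y (α y)) y :=
          ContinuousAt.comp (g := fun x : (V × C2) × C2 => sh x.1 x.2)
            (f := fun y => ((y, α y) : (V × C2) × C2)) continuous_sh.continuousAt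
            (continuousAt_id.prodMk (hαd' y (hAU hy)).continuousAt)
        have h4 : sh y (α y) ∈ A' := hA' y hy _ ((hαb y hy).trans_le (hε₁2.trans l2))
        filter_upwards [hc.eventually (eventually_nhdsSet_iff_forall.1 hu _ h4),
          hUα.mem_nhds (hAU hy)] with x hx hx'
        exact FH.comp (u := u) (q := fun y => sh y (α y)) hx
          (DifferentiableAt.comp (g := fun x : (V × C2) × C2 => sh x.1 x.2)
            (f := fun y => ((y, α y) : (V × C2) × C2)) x hq.differentiableAt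
            (differentiableAt_id.prodMk (hαd' x hx')))
      filter_upwards [e1, ev_ev_nhdsSet hvA] with y hy hy' using hy.congr hy'
    · have e1 : ∀ᶠ y in 𝓝ˢ B, FH F t (fun y => u' (sh y (τ y))) y := by
        rw [eventually_nhdsSet_iff_forall]
        intro y hy
        have hc : ContinuousAt (fun y => sh y (τ y)) y :=
          ContinuousAt.comp (g := fun x : (V × C2) × C2 => sh x.1 x.2)
            (f := fun y => ((y, τ y) : (V × C2) × C2)) continuous_sh.continuousAt
            (continuousAt_id.prodMk (hτd' y (hBU hy)).continuousAt)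
        have h4 : sh y (τ y) ∈ B' := hB' y hy _ ((hτb y hy).trans_le (hε₁2.trans l2))
        filter_upwards [hc.eventually (eventually_nhdsSet_iff_forall.1 hu' _ h4),
          hUτ.mem_nhds (hBU hy)] with x hx hx'
        exact FH.comp (u := u') (q := fun y => sh y (τ y)) hx
          (DifferentiableAt.comp (g := fun x : (V × C2) × C2 => sh x.1 x.2)
            (f := fun y => ((y, τ y) : (V × C2) × C2)) x hq.differentiableAt
            (differentiableAt_id.prodMk (hτd' x hx')))
      filter_upwards [e1, ev_ev_nhdsSet hvB] with y hy hy' using hy.congr hy'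

end Vale.Agent.P290.R2.H596
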