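import Vale.Agent.P290.R2.H596.Spec

/-! R6c: interpolation near a given tuple of points of the central fibre. -/

open Set Filter Metric
open scoped Topology

namespace Vale.Agent.P290.R2.H596

open Vale.Agent.P290 Vale.Agent.P290.K Vale.Agent.P290.H580 Vale.Agent.P290.H805

/-- points near the point with the coordinate `a + w` -/
def NearC {T E : Type} [TopologicalSpace T] [TopologicalSpace E] (F : Family T E) {k : ℕ}
    (x : Fin k → E) (a : Fin k → C2) (δ : ℝ) (j : Fin k) : Set ((Fin k → C2) × E) :=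
  {q | q.2 ∈ (F.triv (x j)).source ∧ ‖(F.triv (x j) q.2).2 - (a j + q.1 j)‖ < δ}

theorem isOpen_nearC {T E : Type} [TopologicalSpace T] [TopologicalSpace E] (F : Family T E)
    {k : ℕ} (x : Fin k → E) (a : Fin k → C2) (δ : ℝ) (j : Fin k) : IsOpen (NearC F x a δ j) := by
  have h1 : ContinuousOn (fun q : (Fin k → C2) × E =>
      ‖(F.triv (x j) q.2).2 - (a j + q.1 j)‖) (Prod.snd ⁻¹' (F.triv (x j)).source) := by
    refine ContinuousOn.norm (ContinuousOn.sub ?_ (by fun_prop))
    exact continuous_snd.comp_continuousOn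
      ((F.triv (x j)).continuousOn.comp continuous_snd.continuousOn fun q hq => hq)
  exact h1.isOpen_inter_preimage ((F.triv (x j)).open_source.preimage continuous_snd) isOpen_Iio

/-- the neighbourhoods of the graph given by conditions over finitely many points -/
theorem mem_nhds_cond {X Y Z : Type} [TopologicalSpace X] [T1Space X] [TopologicalSpace Y]
    [TopologicalSpace Z] {k : ℕ} (n : Fin k → X) (O : Fin k → Set (Y × Z))
    (hO : ∀ j, IsOpen (O j)) (v : X × Y) (e : Z) (h : ∀ j, v.1 = n j → (v.2, e) ∈ O j) :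
    {q : (X × Y) × Z | ∀ j, q.1.1 = n j → (q.1.2, q.2) ∈ O j} ∈ 𝓝 (v, e) := by
  have h1 : ∀ j, ∀ᶠ q : (X × Y) × Z in 𝓝 (v, e), q.1.1 = n j → (q.1.2, q.2) ∈ O j := by
    intro j
    by_cases hj : v.1 = n j
    · have hc : ContinuousAt (fun q : (X × Y) × Z => ((q.1.2, q.2) : Y × Z)) (v, e) := by fun_prop
      filter_upwards [hc.eventually ((hO j).mem_nhds (h j hj))] with q hq _ using hq
    · have hc : ContinuousAt (fun q : (X × Y) × Z => q.1.1) (v, e) := by fun_prop
      filter_upwards [hc.eventually (isOpen_ne.mem_nhds hj)] with q hq hq' using absurd hq' hq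
  exact eventually_all.2 h1

theorem exists_nodes (k : ℕ) : ∃ n : Fin (k + 1) → ℂ, (∀ j, ‖n j‖ = 1) ∧ Function.Injective n := by
  have h := Complex.isPrimitiveRoot_exp (k + 1) (by omega)
  refine ⟨fun j => Complex.exp (2 * Real.pi * Complex.I / ((k + 1 : ℕ) : ℂ)) ^ (j : ℕ), ?_, ?_⟩
  · intro j
    rw [norm_pow, h.norm'_eq_one (by omega), one_pow]
  · intro i j hij
    exact Fin.ext (h.pow_inj i.2 j.2 hij)

theorem nearby (hL : StLocal) (hO : StOka) (hs : StSurj) (hi : StInterp) : StNearby := by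
  intro T E _ _ F t₀ _ _ _ hOka m k z hz ρ x hx
  classical
  obtain ⟨n, hn1, hn⟩ := exists_nodes k
  obtain ⟨ρ₀, hρ₀, hG⟩ := hL T E F t₀ (k + 1) n hn1 hn x hx
  set a : Fin (k + 1) → C2 := fun j => (F.triv (x j) (x j)).2 with ha
  have hta : ∀ j, F.triv (x j) (x j) = (t₀, a j) := by
    intro j
    rw [F.mk_eq _ (F.mem (x j)), hx j]
  -- the radius
  have hr : ∀ᶠ w : Fin (k + 1) → C2 in 𝓝 0, ∀ j, (t₀, a j + w j) ∈ (F.triv (x j)).target := by
    refine eventually_all.2 fun j => ?_
    have hc : ContinuousAt (fun w : Fin (k + 1) → C2 => ((t₀, a j + w j) : T × C2)) 0 :=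
      continuousAt_const.prodMk (continuousAt_const.add (continuous_apply j).continuousAt)
    refine hc.eventually ((F.triv (x j)).open_target.mem_nhds ?_)
    simp only [Pi.zero_apply, add_zero]
    rw [← hta j]
    exact (F.triv (x j)).map_source (F.mem (x j))
  obtain ⟨ρ₁, hρ₁, hball⟩ := Metric.nhds_basis_closedBall.eventually_iff.1 hr
  set r : ℝ := min ρ₀ ρ₁ with hrd
  have hr0 : 0 < r := lt_min hρ₀ hρ₁
  have htarget : ∀ w ∈ closedBall (0 : Fin (k + 1) → C2) r, ∀ j,
      (t₀, a j + w j) ∈ (F.triv (x j)).target := fun w hw =>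
    hball (closedBall_subset_closedBall (min_le_right _ _) hw)
  have hr8 : 0 < r / 8 := by positivity
  obtain ⟨u, hu, hun⟩ := hG r hr0 (min_le_left _ _) (NearC F x a (r / 8)) (by
    intro j w hw
    refine (isOpen_nearC F x a (r / 8) j).mem_nhds ?_
    refine ⟨(F.triv (x j)).map_target (htarget w hw j), ?_⟩
    simp only
    rw [(F.triv (x j)).right_inv (htarget w hw j)]
    simpa using hr8)
  -- the Oka property
  have hK1 : Good (closedBall (0 : ℂ) 1 ×ˢ closedBall (0 : Fin (k + 1) → C2) r) :=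
    ⟨(isCompact_closedBall _ _).prod (isCompact_closedBall _ _),
      (convex_closedBall _ _).prod (convex_closedBall _ _)⟩
  obtain ⟨G, hG1, hG2⟩ := hO T E F t₀ hOka (ℂ × (Fin (k + 1) → C2)) _ hK1
    ⟨(0, 0), by simp [hr0.le]⟩ u hu
    {q | ∀ j, q.1.1 = n j → (q.1.2, q.2) ∈ NearC F x a (r / 8) j} (by
      intro v hv
      refine mem_nhds_cond n _ (isOpen_nearC F x a (r / 8)) v (u v) fun j hj => ?_
      have := hun j v.2 hv.2
      rwa [← hj] at this)
  -- interpolation
  obtain ⟨P, hP, hPz⟩ := hi m (k + 1) z hz n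
  obtain ⟨R, hRρ, hRz⟩ : ∃ R : ℝ, ρ ≤ R ∧ ∀ j, ‖z j‖ ≤ R := by
    obtain ⟨B, hB⟩ := (Set.finite_range fun j => ‖z j‖).bddAbove
    exact ⟨max ρ B, le_max_left _ _, fun j => (hB ⟨j, rfl⟩).trans (le_max_right _ _)⟩
  have hK2 : Good (closedBall (0 : Fin m → ℂ) R ×ˢ closedBall (0 : Fin (k + 1) → C2) r) :=
    ⟨(isCompact_closedBall _ _).prod (isCompact_closedBall _ _),
      (convex_closedBall _ _).prod (convex_closedBall _ _)⟩
  have hdef := deformation (F := F) (t₀ := t₀) hK2
    (u₀ := fun y : (Fin m → ℂ) × (Fin (k + 1) → C2) => G (P y.1, y.2))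
    (Eventually.of_forall fun y => FH.comp (u := G)
      (q := fun y : (Fin m → ℂ) × (Fin (k + 1) → C2) => (P y.1, y.2)) (hG1 _)
      (((hP y.1).comp y differentiableAt_fst).prodMk differentiableAt_snd))
    {q | ∀ j, q.1.1 = z j → (q.1.2, q.2) ∈ NearC F x a (r / 8) j} (by
      intro y hy
      refine mem_nhds_cond z _ (isOpen_nearC F x a (r / 8)) y _ fun j hj => ?_
      have h1 := hG2 (n j, y.2) ⟨by simp [hn1 j], hy.2⟩ j rfl
      simp only at h1 ⊢
      rw [hj, hPz j]
      exact h1)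
  -- the nearby tuples
  have hpc : ContinuousAt F.p (x 0) := by
    have h1 : ContinuousAt (fun y => (F.triv (x 0) y).1) (x 0) :=
      continuous_fst.continuousAt.comp ((F.triv (x 0)).continuousAt (F.mem (x 0)))
    refine h1.congr ?_
    filter_upwards [(F.triv (x 0)).open_source.mem_nhds (F.mem (x 0))] with y hy
    exact F.fst (x 0) y hy
  have hev1 : ∀ᶠ x' : Fin (k + 1) → E in 𝓝 x, ∀ j, x' j ∈ (F.triv (x j)).source ∧
      ‖(F.triv (x j) (x' j)).2 - a j‖ < r / 4 := by
    refine eventually_all.2 fun j => ?_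
    have h1 : ∀ᶠ e in 𝓝 (x j), e ∈ (F.triv (x j)).source ∧
        ‖(F.triv (x j) e).2 - a j‖ < r / 4 := by
      have h3 : ∀ᶠ e in 𝓝 (x j), e ∈ (F.triv (x j)).source :=
        (F.triv (x j)).open_source.mem_nhds (F.mem (x j))
      refine h3.and ?_
      have h2 : ContinuousAt (fun e => ‖(F.triv (x j) e).2 - a j‖) (x j) :=
        ((continuous_snd.continuousAt.comp ((F.triv (x j)).continuousAt (F.mem (x j)))).sub
          continuousAt_const).norm
      refine h2.eventually (Iio_mem_nhds ?_)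
      have h5 : ‖(F.triv (x j) (x j)).2 - a j‖ = 0 := by
        rw [hta j, sub_self, norm_zero]
      change ‖(F.triv (x j) (x j)).2 - a j‖ < r / 4
      rw [h5]
      positivity
    exact (continuous_apply j).continuousAt.eventually h1
  have hev2 := ((continuous_apply (0 : Fin (k + 1))).continuousAt.tendsto.eventually
    (hpc.eventually ((hx 0).symm ▸ hdef)) : _)
  filter_upwards [hev1, hev2] with x' h1 h2 t ht
  rw [ht 0] at h2
  obtain ⟨v, hv, hvz⟩ := h2
  have hvK : ∀ y ∈ closedBall (0 : Fin m → ℂ) R ×ˢ closedBall (0 : Fin (k + 1) → C2) r,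
      FH F t v y := fun y hy => hv.self_of_nhdsSet y hy
  have hzw : ∀ j, ∀ w ∈ ball (0 : Fin (k + 1) → C2) r,
      (z j, w) ∈ closedBall (0 : Fin m → ℂ) R ×ˢ closedBall (0 : Fin (k + 1) → C2) r :=
    fun j w hw => ⟨by simpa using hRz j, ball_subset_closedBall hw⟩
  have hvn : ∀ j, ∀ w ∈ ball (0 : Fin (k + 1) → C2) r,
      v (z j, w) ∈ (F.triv (x j)).source ∧ ‖(F.triv (x j) (v (z j, w))).2 - (a j + w j)‖ < r / 8 :=
    fun j w hw => hvz (z j, w) (hzw j w hw) j rfl
  obtain ⟨w, hw, hwb⟩ := hs (Fin (k + 1) → C2)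
    (fun w j => (F.triv (x j) (v (z j, w))).2 - a j) r hr0
    (by
      intro w hw
      refine differentiableAt_pi.2 fun j => DifferentiableAt.sub_const ?_ _
      have h3 := (hvK _ (hzw j w hw)).diff (hvn j w hw).1
      exact DifferentiableAt.comp (g := fun y => (F.triv (x j) (v y)).2)
        (f := fun w : Fin (k + 1) → C2 => (z j, w)) w h3
        ((differentiableAt_const _).prodMk differentiableAt_id))
    (by
      intro w hw
      refine (pi_norm_le_iff_of_nonneg hr8.le).2 fun j => ?_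
      have h3 := (hvn j w hw).2.le
      have h4 : ((fun j => (F.triv (x j) (v (z j, w))).2 - a j) - w) j =
          (F.triv (x j) (v (z j, w))).2 - (a j + w j) := by
        simp only [Pi.sub_apply]
        abel
      rw [h4]
      exact h3)
    (fun j => (F.triv (x j) (x' j)).2 - a j)
    ((pi_norm_le_iff_of_nonneg (by positivity)).2 fun j => (h1 j).2.le)
  refine ⟨fun y => v (y, w), fun y hy => ?_, fun j => ?_⟩
  · refine FH.comp (u := v) (q := fun y : Fin m → ℂ => (y, w)) (hvK _ ⟨?_, ball_subset_closedBall hw⟩)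
      (differentiableAt_id.prodMk (differentiableAt_const _))
    exact closedBall_subset_closedBall hRρ hy
  · have h3 := congrFun hwb j
    have h4 : (F.triv (x j) (v (z j, w))).2 = (F.triv (x j) (x' j)).2 := sub_left_injective h3
    have h5 : F.triv (x j) (v (z j, w)) = F.triv (x j) (x' j) := by
      rw [F.mk_eq _ (hvn j w hw).1, F.mk_eq _ (h1 j).1, h4, ht j,
        (hvK _ (hzw j w hw)).1.self_of_nhds]
    exact (F.triv (x j)).injOn (hvn j w hw).1 (h1 j).1 h5

end Vale.Agent.P290.R2.H596
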