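import Vale.Agent.P290.R2.H596.Spec

/-! The Oka property on an arbitrary finite-dimensional space. -/

open Set Filter Metric
open scoped Topology

namespace Vale.Agent.P290.R2.H596

open Vale.Agent.P290 Vale.Agent.P290.K Vale.Agent.P290.H580 Vale.Agent.P290.H805

theorem okaV : StOka := by
  intro T E _ _ F t _ _ hO V _ _ _ _ K hK hne u hu 𝒪 h𝒪
  classical
  have hm : 1 ≤ Module.finrank ℂ V := Module.finrank_pos
  generalize hmV : Module.finrank ℂ V = m at hm
  have e : V ≃L[ℂ] (Fin m → ℂ) := ContinuousLinearEquiv.ofFinrankEq (by simp [hmV])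
  have : SecondCountableTopology (Fib F t) :=
    ChartedSpace.secondCountable_of_sigmaCompact C2 (Fib F t)
  let _ : MetricSpace (Fib F t) := TopologicalSpace.metrizableSpaceMetric (Fib F t)
  obtain ⟨U, hUo, hKU, hU⟩ := mem_nhdsSet_iff_exists.1 hu
  have hpt : ∀ z ∈ U, F.p (u z) = t := fun z hz => (hU hz).1.self_of_nhds
  obtain ⟨z₀, hz₀⟩ := hne
  let f : (Fin m → ℂ) → Fib F t := fun w =>
    if h : F.p (u (e.symm w)) = t then ⟨u (e.symm w), h⟩ else ⟨u z₀, hpt z₀ (hKU hz₀)⟩
  have hf : ∀ w, e.symm w ∈ U → (f w).1 = u (e.symm w) := fun w hw => by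
    simp only [f, dif_pos (hpt _ hw)]
  have hU'o : IsOpen (e.symm ⁻¹' U) := hUo.preimage e.symm.continuous
  have hfH : ∀ w ∈ e.symm ⁻¹' U, All.HolV f w := fun w hw => by
    rw [holV_fib_iff]
    refine FH.congr (FH.comp (q := fun w => e.symm w) (hU hw) e.symm.differentiableAt) ?_
    filter_upwards [hU'o.mem_nhds hw] with y hy using hf y hy
  have hK'c : IsCompact (e.symm ⁻¹' K) := by
    have : e.symm ⁻¹' K = e '' K := by
      ext w
      constructor
      · intro hw
        exact ⟨e.symm w, hw, e.apply_symm_apply w⟩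
      · rintro ⟨z, hz, rfl⟩
        simpa using hz
    rw [this]
    exact hK.1.image e.continuous
  have hK'v : Convex ℝ (e.symm ⁻¹' K) := by
    refine hK.2.is_linear_preimage ⟨fun x y => map_add e.symm x y, fun c x => ?_⟩
    have := e.symm.map_smul (c : ℂ) x
    simpa using this
  have hKU' : e.symm ⁻¹' K ⊆ e.symm ⁻¹' U := preimage_mono hKU
  obtain ⟨ε, hε, hεN⟩ := unif_nbhd hK'c f (fun z hz => (hfH z (hKU' hz)).1)
    {q | (e.symm q.1, q.2.1) ∈ 𝒪} (fun z hz => by
      have hc : Continuous fun q : (Fin m → ℂ) × Fib F t => (e.symm q.1, q.2.1) :=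
        (e.symm.continuous.comp continuous_fst).prodMk (continuous_val.comp continuous_snd)
      have h1 : 𝒪 ∈ 𝓝 ((fun q : (Fin m → ℂ) × Fib F t => (e.symm q.1, q.2.1)) (z, f z)) := by
        change 𝒪 ∈ 𝓝 (e.symm z, (f z).1)
        rw [hf z (hKU' hz)]
        exact h𝒪 _ hz
      exact hc.continuousAt.preimage_mem_nhds h1)
  obtain ⟨G, hG1, hG2⟩ := hO m (e.symm ⁻¹' K) (e.symm ⁻¹' U) hm hK'c hK'v
    ⟨e z₀, by simpa using hz₀⟩ hU'o hKU' f hfH dist continuous_dist dist_self ε hε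
  refine ⟨fun z => (G (e z)).1, fun z =>
    FH.comp (q := fun z => e z) (holV_fib_iff.1 (hG1 (e z))) e.differentiableAt, fun z hz => ?_⟩
  have hz' : e z ∈ e.symm ⁻¹' K := by simpa using hz
  have h2 := hεN (e z) hz' (G (e z)) (hG2 (e z) hz')
  simpa using h2

end Vale.Agent.P290.R2.H596
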