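import Vale.Agent.P290.R2.H596.Spec

/-! R4a: one step: the values of a family of discs are moved at one node. -/

open Set Filter Metric
open scoped Topology ComplexConjugate

namespace Vale.Agent.P290.R2.H596

open Vale.Agent.P290 Vale.Agent.P290.K Vale.Agent.P290.H580 Vale.Agent.P290.H805

theorem re_conj_mul_le {b c : ℂ} (hb : ‖b‖ = 1) (hc : ‖c‖ ≤ 1) : (conj b * c).re ≤ 1 := by
  refine (Complex.re_le_norm _).trans ?_
  rw [norm_mul, RCLike.norm_conj, hb, one_mul]
  exact hc

theorem eq_of_re_conj_mul {b c : ℂ} (hb : ‖b‖ = 1) (hc : ‖c‖ ≤ 1) (h : (conj b * c).re = 1) :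
    c = b := by
  have h1 : ‖conj b * c‖ ≤ 1 := by
    rw [norm_mul, RCLike.norm_conj, hb, one_mul]
    exact hc
  have h2 : (conj b * c).re ^ 2 + (conj b * c).im ^ 2 = ‖conj b * c‖ ^ 2 := by
    rw [← Complex.normSq_eq_norm_sq, Complex.normSq_apply]
    ring
  have h3 : ‖conj b * c‖ ^ 2 ≤ 1 := by
    have := norm_nonneg (conj b * c)
    nlinarith
  have h4 : (conj b * c).im = 0 := by
    rw [h] at h2
    have : (conj b * c).im ^ 2 ≤ 0 := by linarith
    nlinarith [sq_nonneg (conj b * c).im]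
  have h5 : conj b * c = 1 := Complex.ext (by rw [h, Complex.one_re]) (by rw [h4, Complex.one_im])
  have h6 : b * conj b = 1 := by
    rw [Complex.mul_conj, Complex.normSq_eq_norm_sq, hb]
    simp
  calc c = (b * conj b) * c := by rw [h6, one_mul]
    _ = b * (conj b * c) := by ring
    _ = b := by rw [h5, mul_one]

theorem step (hM : StMove) : StStep := by
  intro T E _ _ F t₀ k n hn hinj H hG j y a R hR hball hc hsrc hin h hd h0
  obtain ⟨ρG, hρG, hG⟩ := hG
  -- the radius
  have hO : IsOpen ((F.triv y).source ∩ (F.triv y) ⁻¹' (Prod.snd ⁻¹' ball a R)) :=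
    (F.triv y).isOpen_inter_preimage (isOpen_ball.preimage continuous_snd)
  have e1 : ∀ᶠ w in 𝓝 (0 : Fin k → C2),
      H j w ∈ (F.triv y).source ∩ (F.triv y) ⁻¹' (Prod.snd ⁻¹' ball a R) :=
    hc.eventually (hO.mem_nhds ⟨hsrc, hin⟩)
  have e2 : ∀ᶠ w in 𝓝 (0 : Fin k → C2), h w ∈ ball a R :=
    hd.continuous.continuousAt.eventually (isOpen_ball.mem_nhds h0)
  obtain ⟨ρ1, hρ1, h1⟩ := nhds_basis_closedBall.eventually_iff.1 (e1.and e2)
  refine ⟨min ρG ρ1, lt_min hρG hρ1, ?_⟩
  intro ρ hρ hρle 𝒪 h𝒪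
  have hρG' : ρ ≤ ρG := hρle.trans (min_le_left _ _)
  have hρ1' : ρ ≤ ρ1 := hρle.trans (min_le_right _ _)
  have h1' : ∀ w ∈ closedBall (0 : Fin k → C2) ρ,
      H j w ∈ (F.triv y).source ∩ (F.triv y) ⁻¹' (Prod.snd ⁻¹' ball a R) ∧ h w ∈ ball a R :=
    fun w hw => h1 (closedBall_subset_closedBall hρ1' hw)
  set S : Set ((Fin k → C2) × E) :=
    Prod.snd ⁻¹' ((F.triv y).source ∩ (F.triv y) ⁻¹' (Prod.snd ⁻¹' ball a R)) with hS
  have hSo : IsOpen S := hO.preimage continuous_snd
  obtain ⟨u, hu1, hu2⟩ := hG ρ hρ hρG' (Function.update (fun i => interior (𝒪 i)) j S) (by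
    intro i w hw
    by_cases hij : i = j
    · subst hij
      rw [Function.update_self]
      exact hSo.mem_nhds (h1' w hw).1
    · rw [Function.update_of_ne hij]
      have := h𝒪 i w hw
      rw [Function.update_of_ne hij] at this
      exact interior_mem_nhds.2 this)
  have hu3 : ∀ w ∈ closedBall (0 : Fin k → C2) ρ, (w, u (n j, w)) ∈ S := by
    intro w hw
    have := hu2 j w hw
    rwa [Function.update_self] at this
  have hu4 : ∀ i, i ≠ j → ∀ w ∈ closedBall (0 : Fin k → C2) ρ,
      (w, u (n i, w)) ∈ interior (𝒪 i) := by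
    intro i hij w hw
    have := hu2 i w hw
    rwa [Function.update_of_ne hij] at this
  -- the gap
  have hη : ∃ η > (0 : ℝ), ∀ i, i ≠ j → (conj (n j) * n i).re ≤ 1 - η := by
    have e3 : ∀ᶠ η in 𝓝[>] (0 : ℝ), ∀ i, i ≠ j → (conj (n j) * n i).re ≤ 1 - η := by
      refine eventually_all.2 fun i => ?_
      by_cases hij : i = j
      · exact Eventually.of_forall fun η h' => absurd hij h'
      · have hlt : (conj (n j) * n i).re < 1 :=
          lt_of_le_of_ne (re_conj_mul_le (hn j) (hn i).le) fun h' =>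
            hij (hinj (eq_of_re_conj_mul (hn j) (hn i).le h'))
        have : ∀ᶠ η in 𝓝 (0 : ℝ), η < 1 - (conj (n j) * n i).re :=
          eventually_lt_nhds (by linarith)
        filter_upwards [mem_nhdsWithin_of_mem_nhds this] with η h' _
        have h'' : η < 1 - (conj (n j) * n i).re := h'
        linarith
    obtain ⟨η, h2, h3⟩ := (e3.and self_mem_nhdsWithin).exists
    exact ⟨η, h3, h2⟩
  obtain ⟨η, hη, hηn⟩ := hη
  set K : Set (ℂ × (Fin k → C2)) := closedBall (0 : ℂ) 1 ×ˢ closedBall (0 : Fin k → C2) ρ with hK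
  have hKg : Good K :=
    ⟨(isCompact_closedBall _ _).prod (isCompact_closedBall _ _),
      (convex_closedBall _ _).prod (convex_closedBall _ _)⟩
  set ℓ : (ℂ × (Fin k → C2)) →L[ℂ] ℂ :=
    (conj (n j)) • ContinuousLinearMap.fst ℂ ℂ (Fin k → C2) with hℓ
  have hℓa : ∀ z, ℓ z = conj (n j) * z.1 := fun z => by
    simp [hℓ]
  have hz1 : ∀ z ∈ K, ‖z.1‖ ≤ 1 := fun z hz => mem_closedBall_zero_iff.1 hz.1
  have hre : ∀ z ∈ K, (ℓ z).re = 1 → z = (n j, z.2) := by
    intro z hz h'
    rw [hℓa] at h'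
    exact Prod.ext (eq_of_re_conj_mul (hn j) (hz1 z hz) h') rfl
  obtain ⟨g', hg1, hg2, hg3⟩ := hM T E F (ℂ × (Fin k → C2)) t₀ K hKg u hu1 ℓ
    (fun z hz => by
      rw [hℓa]
      exact re_conj_mul_le (hn j) (hz1 z hz)) y (fun z => h z.2) (hd.comp differentiable_snd)
    (fun z hz h' => by
      rw [hre z hz h']
      exact (hu3 z.2 hz.2).1)
    (fun z hz h' s hs => by
      have hY : (F.triv y (u z)).2 ∈ ball a R := by
        rw [hre z hz h']
        exact (hu3 z.2 hz.2).2
      have hh : h z.2 ∈ ball a R := (h1' z.2 hz.2).2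
      refine hball _ ?_
      rw [mem_ball_iff_norm] at hY hh ⊢
      have e4 : (1 - s) • (F.triv y (u z)).2 + s • h z.2 - a =
          (1 - s) • ((F.triv y (u z)).2 - a) + s • (h z.2 - a) := by
        module
      rw [e4]
      have e5 : ‖(1 - s) • ((F.triv y (u z)).2 - a)‖ ≤ 2 * ‖(F.triv y (u z)).2 - a‖ := by
        rw [norm_smul]
        refine mul_le_mul_of_nonneg_right ?_ (norm_nonneg _)
        calc ‖1 - s‖ ≤ ‖(1 : ℂ)‖ + ‖s‖ := norm_sub_le _ _
          _ ≤ 2 := by rw [norm_one]; linarith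
      have e6 : ‖s • (h z.2 - a)‖ ≤ ‖h z.2 - a‖ := by
        rw [norm_smul]
        exact mul_le_of_le_one_left (norm_nonneg _) hs
      calc _ ≤ ‖(1 - s) • ((F.triv y (u z)).2 - a)‖ + ‖s • (h z.2 - a)‖ := norm_add_le _ _
        _ < 3 * R := by linarith)
    η hη {p | ∀ i, i ≠ j → p.1.1 = n i → (p.1.2, p.2) ∈ 𝒪 i}
    (fun z hz => by
      have e7 : ∀ᶠ p in 𝓝 (z, u z), ∀ i, i ≠ j → p.1.1 = n i → (p.1.2, p.2) ∈ 𝒪 i := by
        refine eventually_all.2 fun i => ?_
        by_cases hij : i = j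
        · exact Eventually.of_forall fun p h' => absurd hij h'
        · by_cases hzi : z.1 = n i
          · have hmem : (z.2, u z) ∈ interior (𝒪 i) := by
              have h5 := hu4 i hij z.2 hz.2
              have h6 : z = (n i, z.2) := Prod.ext hzi rfl
              rwa [← h6] at h5
            have hcont : Continuous
                (fun p : (ℂ × (Fin k → C2)) × E => (p.1.2, p.2)) := by fun_prop
            have h7 : ∀ᶠ p in 𝓝 (z, u z), (p.1.2, p.2) ∈ interior (𝒪 i) :=
              (isOpen_interior.preimage hcont).mem_nhds hmem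
            filter_upwards [h7] with p hp _ _
            exact interior_subset hp
          · have hcont : Continuous (fun p : (ℂ × (Fin k → C2)) × E => p.1.1) := by fun_prop
            have h7 : ∀ᶠ p in 𝓝 (z, u z), p.1.1 ≠ n i :=
              (isOpen_ne.preimage hcont).mem_nhds hzi
            filter_upwards [h7] with p hp _ h8
            exact absurd h8 hp
      exact e7)
  refine ⟨g', hg1, ?_⟩
  intro i w hw
  have hKi : (n i, w) ∈ K := ⟨mem_closedBall_zero_iff.2 (hn i).le, hw⟩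
  by_cases hij : i = j
  · subst hij
    have e8 : ℓ (n i, w) = 1 := by
      rw [hℓa]
      have : n i * conj (n i) = 1 := by
        rw [Complex.mul_conj, Complex.normSq_eq_norm_sq, hn i]
        simp
      rw [mul_comm]
      exact this
    have e9 := hg3 (n i, w) hKi e8
    have e10 := mem_of_mem_nhds (h𝒪 i w hw)
    rw [Function.update_self] at e10
    rw [e9]
    exact e10
  · have e8 : (ℓ (n i, w)).re ≤ 1 - η := by
      rw [hℓa]
      exact hηn i hij
    exact hg2 (n i, w) hKi e8 i hij rfl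

end Vale.Agent.P290.R2.H596
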