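import Vale.Agent.P290.R2.H596.Spec

/-! Rows R6a and R6b: maps close to the identity are onto a ball, interpolation by scalar
functions. -/

open Set Filter Metric
open scoped Topology NNReal

namespace Vale.Agent.P290.R2.H596

open Vale.Agent.P290 Vale.Agent.P290.K Vale.Agent.P290.H580 Vale.Agent.P290.H805

theorem surj : StSurj := by
  intro W _ _ _ φ ρ hρ hd hb b hb0
  have hcomplete : CompleteSpace W := FiniteDimensional.complete ℂ W
  set ψ : W → W := fun w => φ w - w with hψ
  have hdψ : DifferentiableOn ℂ ψ (ball 0 ρ) := fun w hw =>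
    ((hd w hw).sub differentiableAt_id).differentiableWithinAt
  have hlip : ∀ x ∈ ball (0 : W) (ρ / 2), ∀ y ∈ ball (0 : W) (ρ / 2),
      ‖ψ x - ψ y‖ ≤ 1 / 4 * ‖x - y‖ := by
    intro x hx y hy
    refine Convex.norm_image_sub_le_of_norm_fderiv_le (𝕜 := ℂ) (s := ball (0 : W) (ρ / 2)) ?_ ?_
      (convex_ball _ _) hy hx
    · intro z hz
      exact hdψ.differentiableAt (isOpen_ball.mem_nhds (ball_subset_ball (by linarith) hz))
    · intro z hz
      have hsub : ball z (ρ / 2) ⊆ ball (0 : W) ρ := by
        refine ball_subset_ball' ?_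
        rw [mem_ball] at hz
        linarith
      refine (norm_fderiv_le_of_bound (by positivity) (hdψ.mono hsub)
        fun x hx => hb x (hsub hx)).trans ?_
      rw [div_le_iff₀ (by positivity)]
      linarith
  set f : W → W := fun c => b - ψ c with hf
  set s : Set W := closedBall 0 (3 * ρ / 8) with hs
  have hmem : ∀ c ∈ s, c ∈ ball (0 : W) (ρ / 2) := by
    intro c hc
    rw [hs, mem_closedBall_zero_iff] at hc
    rw [mem_ball_zero_iff]
    linarith
  have hmaps : MapsTo f s s := by
    intro c hc
    have h1 := hb c (ball_subset_ball (by linarith) (hmem c hc))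
    rw [hs, mem_closedBall_zero_iff, hf]
    calc ‖b - ψ c‖ ≤ ‖b‖ + ‖ψ c‖ := norm_sub_le _ _
      _ ≤ ρ / 4 + ρ / 8 := add_le_add hb0 h1
      _ = 3 * ρ / 8 := by ring
  have hcon : ContractingWith (1 / 4) (hmaps.restrict f s s) := by
    refine ⟨by
      rw [div_lt_one (by norm_num)]; norm_num, ?_⟩
    refine LipschitzWith.of_dist_le_mul fun x y => ?_
    rw [Subtype.dist_eq, Subtype.dist_eq, dist_eq_norm, dist_eq_norm]
    have h1 := hlip y.1 (hmem y.1 y.2) x.1 (hmem x.1 x.2)
    have h2 : ((hmaps.restrict f s s x : s) : W) - ((hmaps.restrict f s s y : s) : W) =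
        ψ y.1 - ψ x.1 := by
      simp only [MapsTo.val_restrict_apply, hf]
      abel
    rw [h2]
    rw [norm_sub_rev (y : W) x] at h1
    simpa using h1
  obtain ⟨c, hc, hfix, -⟩ := hcon.exists_fixedPoint' isClosed_closedBall.isComplete hmaps
    (mem_closedBall_self (by positivity)) (edist_ne_top _ _)
  refine ⟨c, ball_subset_ball (by linarith) (hmem c hc), ?_⟩
  have h1 : b - (φ c - c) = c := hfix
  have h2 : φ c - b = c - (b - (φ c - c)) := by abel
  rw [← sub_eq_zero, h2, h1, sub_self]

theorem interp : StInterp := by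
  intro m k z hz c
  have h : ∀ i j : Fin k, ∃ q : (Fin m → ℂ) → ℂ, Differentiable ℂ q ∧ q (z j) = 1 ∧
      (i ≠ j → q (z i) = 0) := by
    intro i j
    by_cases hij : i = j
    · exact ⟨fun _ => 1, differentiable_const _, rfl, fun h => absurd hij h⟩
    · obtain ⟨l, hl⟩ := Function.ne_iff.mp (hz.ne hij)
      refine ⟨fun x => (x l - z i l) / (z j l - z i l), ?_, ?_, fun _ => ?_⟩
      · have h1 : Differentiable ℂ fun x : Fin m → ℂ => x l := differentiable_apply l
        have h2 : Differentiable ℂ fun x : Fin m → ℂ => x l - z i l := h1.sub_const _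
        have h3 := h2.mul_const (z j l - z i l)⁻¹
        simpa only [div_eq_mul_inv] using h3
      · exact div_self (sub_ne_zero.2 (Ne.symm hl))
      · show (z i l - z i l) / (z j l - z i l) = 0
        rw [sub_self, zero_div]
  choose q hq1 hq2 hq3 using h
  refine ⟨fun x => ∑ j, c j * ∏ i, q i j x, ?_, ?_⟩
  · refine Differentiable.fun_sum fun j _ => (Differentiable.const_mul ?_ _)
    intro x
    exact (HasFDerivAt.finsetProd (u := Finset.univ) (g := fun i => q i j)
      fun i _ => (hq1 i j x).hasFDerivAt).differentiableAt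
  · intro j
    show ∑ j', c j' * ∏ i, q i j' (z j) = c j
    rw [Finset.sum_eq_single j]
    · rw [Finset.prod_eq_one, mul_one]
      intro i _
      by_cases hij : i = j
      · rw [hij]; exact hq2 j j
      · exact hq2 i j
    · intro j' _ hj'
      rw [Finset.prod_eq_zero (Finset.mem_univ j) (hq3 j j' (Ne.symm hj')), mul_zero]
    · intro hj
      exact absurd (Finset.mem_univ j) hj

end Vale.Agent.P290.R2.H596
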