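import Vale.Agent.P290.R2.H596.Spec

/-! Etale tubes over compact convex sets: existence, smallness, openness of closeness. -/

open Set Filter Metric
open scoped Topology

namespace Vale.Agent.P290.R2.H596

open Vale.Agent.P290 Vale.Agent.P290.K Vale.Agent.P290.H580 Vale.Agent.P290.H805

/-- there are etale tubes over compact convex sets -/
theorem tube : StTube := by
  intro T E _ _ F V _ _ _ t₀ D K hK hKN ε hε
  classical
  obtain ⟨ρ, hρ, hadm⟩ := D.exists_adm
  have gK : Good (K ×ˢ closedBall (0 : C2) 1) :=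
    ⟨hK.1.prod (isCompact_closedBall _ _), hK.2.prod (convex_closedBall _ _)⟩
  have : Nonempty (ℝ × E) := ⟨(0, D.u₀ 0)⟩
  have hcovK : K ×ˢ closedBall (0 : C2) 1 ⊆ {y : V × C2 | y.1 ∈ ⋃ j, interior (D.N j)} :=
    fun y hy => hKN hy.1
  have hopen : IsOpen {y : V × C2 | y.1 ∈ ⋃ j, interior (D.N j)} :=
    (isOpen_iUnion fun j => isOpen_interior).preimage continuous_fst
  obtain ⟨η₁, hη₁, hη₁K⟩ := gK.1.exists_cthickening_subset_open hopen hcovK
  obtain ⟨η₀, hη₀, key⟩ := perturb (C := ℝ) (Pt := ℝ × T) (Φ := ℝ × E) gK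
    (fun p _ => p.1) (fun _ => 0) (fun _ p => D.Adm ρ p.1 p.2) (fun _ _ _ _ h => h)
    (fun p u y => (∀ᶠ y' in 𝓝 y, (u y').1 = p.1) ∧ FH F p.2 (fun y => (u y).2) y)
    (fun ε y φ => D.Cl ε φ.1 y φ.2)
    (by
      rintro ⟨z₀, w₀⟩ ⟨hz₀, hw₀⟩
      obtain ⟨i, hi⟩ := mem_iUnion.1 (hKN hz₀)
      simp only at hz₀ hw₀ hi
      rw [mem_closedBall_zero_iff] at hw₀
      set U : Set (V × C2) := interior (D.N i) ×ˢ ball (0 : C2) 2 with hU
      have hUo : IsOpen U := isOpen_interior.prod isOpen_ball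
      refine ⟨U, hUo.mem_nhds ⟨hi, mem_ball_zero_iff.2 (by linarith)⟩,
        fun S hS hSU ε hε => ?_⟩
      obtain ⟨r₀, hr₀, hest⟩ := D.exists_est hρ hε
      refine ⟨univ ×ˢ Iio r₀, fun y _ => prod_mem_nhds univ_mem (Iio_mem_nhds hr₀), ?_⟩
      rintro ⟨r, t⟩ hA hS'
      rcases S.eq_empty_or_nonempty with rfl | ⟨y₁, hy₁⟩
      · refine ⟨fun _ => (0, D.u₀ 0), by simp only [nhdsSet_empty, eventually_bot], ?_⟩
        intro z hz
        exact absurd hz (notMem_empty z)
      have hr : r < r₀ := (hS' y₁ hy₁).2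
      simp only at hA
      have hin : ∀ y ∈ U, y.1 ∈ D.N i ∧ ‖y.2‖ ≤ 2 := fun y hy =>
        ⟨interior_subset hy.1, (mem_ball_zero_iff.1 hy.2).le⟩
      refine ⟨fun y => (r, D.P i r t y.1 y.2), ?_, fun y hy => ?_⟩
      · filter_upwards [hUo.mem_nhdsSet.2 hSU] with y hy
        refine ⟨Eventually.of_forall fun _ => rfl, ?_⟩
        obtain ⟨h1, h2⟩ := hin y hy
        have hO := D.sub i h1
        refine FH.mk_symm (v := fun y : V × C2 => D.c i y.1 + (r : ℂ) • D.η i y.1 y.2) ?_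
          (hest r hr t hA i y.1 h1 y.2 h2).1
        have e1 : DifferentiableAt ℂ (fun y : V × C2 => D.c i y.1) y :=
          DifferentiableAt.comp (g := D.c i) (f := fun y : V × C2 => y.1) y (D.c_diff hO)
            (by fun_prop)
        have e2 : DifferentiableAt ℂ (fun y : V × C2 => D.η i y.1) y :=
          DifferentiableAt.comp (g := D.η i) (f := fun y : V × C2 => y.1) y (D.η_diff i _ hO)
            (by fun_prop)
        have e3 : DifferentiableAt ℂ (fun y : V × C2 => D.η i y.1 y.2) y :=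
          e2.clm_apply (by fun_prop)
        exact e1.add (DifferentiableAt.const_smul e3 (r : ℂ))
      · obtain ⟨h1, h2⟩ := hin y (hSU hy)
        exact (hest r hr t hA i y.1 h1 y.2 h2).2)
    (by
      refine ⟨η₁, hη₁, fun A B A' B' gA gB gA' gB' hconv hAA hBB hsub ε hε => ?_⟩
      obtain ⟨δ, hδ, hm⟩ := D.merge (Q := cthickening η₁ (K ×ˢ closedBall (0 : C2) 1)) (by
        intro y hy
        obtain ⟨j, hj⟩ := mem_iUnion.1 (hη₁K hy)
        exact ⟨j, interior_subset hj⟩) A B A' B' gA gB gA' gB' hconv hAA hBB hsub ε hε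
      refine ⟨δ, hδ, ?_⟩
      rintro ⟨r, t⟩ u u' hA hu hu' hcu hcu'
      simp only at hA hu hu' hcu hcu'
      have f1 : ∀ y ∈ A', (u y).1 = r := fun y hy => (hu.self_of_nhdsSet y hy).1.self_of_nhds
      have f2 : ∀ y ∈ B', (u' y).1 = r := fun y hy => (hu'.self_of_nhdsSet y hy).1.self_of_nhds
      obtain ⟨v, hv1, hv2⟩ := hm r t (fun y => (u y).2) (fun y => (u' y).2) hA.1
        (hu.mono fun y h => h.2) (hu'.mono fun y h => h.2)
        (fun y hy => by have := hcu y hy; rwa [f1 y hy] at this)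
        (fun y hy => by have := hcu' y hy; rwa [f2 y hy] at this)
      exact ⟨fun y => (r, v y), hv1.mono fun y h => ⟨Eventually.of_forall fun _ => rfl, h⟩, hv2⟩)
  obtain ⟨𝒪, h𝒪, hsol⟩ := key 0 (η₀ / 2) le_rfl (by positivity) (by linarith) ε hε
  obtain ⟨δ, hδ, hδO⟩ := Tube.exists_uniform gK.1.cthickening (0 : ℝ) 𝒪 h𝒪
  refine ⟨δ, hδ, fun r hr0 hr => ?_⟩
  have hA : D.Adm ρ r t₀ := (hadm r hr0).self_of_nhds
  obtain ⟨u, hu1, hu2⟩ := hsol (r, t₀) hA (fun y hy => hδO y hy r (by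
    rw [dist_zero_right, Real.norm_of_nonneg hA.1.le]; exact hr.le))
  have hK0 : cthickening 0 (K ×ˢ closedBall (0 : C2) 1) = K ×ˢ closedBall (0 : C2) 1 := by
    rw [cthickening_zero, gK.1.isClosed.closure_eq]
  rw [hK0] at hu1 hu2
  refine ⟨fun y => (u y).2, hu1.mono fun y h => h.2, fun y hy => ?_⟩
  have h1 := hu2 y hy
  have h2 : (u y).1 = r := (hu1.self_of_nhdsSet _ hy).1.self_of_nhds
  rwa [h2] at h1

/-- small tubes are near the graph of the reference map -/
theorem near : StNear := by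
  intro T E _ _ F V _ _ _ t₀ D K hK hKN 𝒪 h𝒪
  have := D.finite
  obtain ⟨L, hL, hLb⟩ := D.exists_bound
  -- points with small coordinates belong to `𝒪`
  have h1 : ∀ j, ∃ σ > 0, ∀ κ : C2, ‖κ‖ < σ → ∀ z ∈ K ∩ D.N j,
      (z, (F.triv (D.x j)).symm (t₀, D.c j z + κ)) ∈ 𝒪 := by
    intro j
    have hc : IsCompact (K ∩ D.N j) := hK.inter (D.compact j)
    have h2 : ∀ᶠ q : C2 in 𝓝 (0 : C2), ∀ z ∈ K ∩ D.N j,
        (z, (F.triv (D.x j)).symm (t₀, D.c j z + q)) ∈ 𝒪 := by
      refine hc.eventually_forall_of_forall_eventually fun z hz => ?_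
      have hO := D.sub j hz.2
      have c1 : ContinuousAt (fun x : C2 × V => ((t₀, D.c j x.2 + x.1) : T × C2))
          ((0 : C2), z) := by
        refine continuousAt_const.prodMk (ContinuousAt.add ?_ continuous_fst.continuousAt)
        exact ContinuousAt.comp (g := D.c j) (f := fun x : C2 × V => x.2)
          (x := ((0 : C2), z)) (D.c_diff hO).continuousAt continuous_snd.continuousAt
      have c2 : ContinuousAt (F.triv (D.x j)).symm (t₀, D.c j z + 0) := by
        rw [add_zero]; exact (F.triv (D.x j)).continuousAt_symm (D.c_mem hO)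
      have c3 : ContinuousAt (fun x : C2 × V =>
          (F.triv (D.x j)).symm (t₀, D.c j x.2 + x.1)) ((0 : C2), z) :=
        ContinuousAt.comp (g := (F.triv (D.x j)).symm)
          (f := fun x : C2 × V => ((t₀, D.c j x.2 + x.1) : T × C2))
          (x := ((0 : C2), z)) c2 c1
      have c4 : ContinuousAt (fun x : C2 × V =>
          ((x.2, (F.triv (D.x j)).symm (t₀, D.c j x.2 + x.1)) : V × E)) ((0 : C2), z) :=
        continuous_snd.continuousAt.prodMk c3
      refine c4.eventually ?_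
      simp only [add_zero, D.symm_c hO]
      exact h𝒪 z hz.1
    obtain ⟨σ, hσ, hσB⟩ := Metric.mem_nhds_iff.1 h2
    exact ⟨σ, hσ, fun κ hκ => hσB (mem_ball_zero_iff.2 hκ)⟩
  choose σ hσ h2 using h1
  obtain ⟨σ₀, hσ₀, hle⟩ : ∃ σ₀ > 0, ∀ q, σ₀ ≤ σ q := by
    rcases isEmpty_or_nonempty D.J with h | h
    · exact ⟨1, one_pos, fun j => isEmptyElim j⟩
    · obtain ⟨j, hj⟩ := Finite.exists_min σ
      exact ⟨σ j, hσ j, hj⟩
  refine ⟨σ₀ / (2 * L), by positivity, fun r hr0 hr z hz w hw x hx hcl => ?_⟩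
  have hr2 : r * (2 * L) < σ₀ := by rwa [lt_div_iff₀ (by positivity)] at hr
  obtain ⟨j, hj⟩ := mem_iUnion.1 (hKN hz)
  have hj' : z ∈ D.N j := interior_subset hj
  obtain ⟨h4, h5⟩ := hcl j hj'
  simp only at h5
  have h6 := D.eq_symm hr0 (D.sub j hj') h4
  rw [hx] at h6
  rw [h6]
  refine h2 j _ ?_ z ⟨hz, hj'⟩
  have hk : ‖D.k j r z x‖ ≤ 2 := by
    have e1 : D.k j r z x = (D.k j r z x - w) + w := by abel
    rw [e1]
    refine (norm_add_le _ _).trans ?_
    linarith
  rw [norm_smul, Complex.norm_real, Real.norm_of_nonneg hr0.le]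
  calc r * ‖D.η j z (D.k j r z x)‖ ≤ r * (L * 2) := by
        refine mul_le_mul_of_nonneg_left ?_ hr0.le
        refine (ContinuousLinearMap.le_opNorm _ _).trans ?_
        exact mul_le_mul (hLb j z hj').1 hk (norm_nonneg _) hL.le
    _ < σ j := by
        have := hle j
        linarith

/-- closeness is an open condition -/
theorem clOpen : StClOpen := by
  intro T E _ _ F V _ _ t₀ D δ r q x hq
  have := D.finite
  have h : ∀ j, ∀ᶠ p : (V × C2) × E in 𝓝 (q, x), p.1.1 ∈ D.N j →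
      p.2 ∈ (F.triv (D.x j)).source ∧ ‖D.k j r p.1.1 p.2 - p.1.2‖ < δ := by
    intro j
    have hc1 : Continuous fun p : (V × C2) × E => p.1.1 := by fun_prop
    by_cases hj : q.1 ∈ D.N j
    · obtain ⟨h1, h2⟩ := hq j hj
      have hO := D.sub j hj
      have e1 : ∀ᶠ p : (V × C2) × E in 𝓝 (q, x), p.2 ∈ (F.triv (D.x j)).source :=
        continuous_snd.continuousAt.eventually ((F.triv (D.x j)).open_source.mem_nhds h1)
      have c1 : ContinuousAt (fun p : (V × C2) × E => D.ζ j p.1.1) (q, x) :=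
        ContinuousAt.comp (g := D.ζ j) (f := fun p : (V × C2) × E => p.1.1) (x := (q, x))
          (D.ζ_diff j _ hO).continuousAt hc1.continuousAt
      have c2 : ContinuousAt (fun p : (V × C2) × E => D.c j p.1.1) (q, x) :=
        ContinuousAt.comp (g := D.c j) (f := fun p : (V × C2) × E => p.1.1) (x := (q, x))
          (D.c_diff hO).continuousAt hc1.continuousAt
      have c3 : ContinuousAt (fun p : (V × C2) × E => F.triv (D.x j) p.2) (q, x) :=
        ContinuousAt.comp (g := F.triv (D.x j)) (f := fun p : (V × C2) × E => p.2) (x := (q, x))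
          ((F.triv (D.x j)).continuousAt h1) continuous_snd.continuousAt
      have c4 : ContinuousAt (fun p : (V × C2) × E => (F.triv (D.x j) p.2).2) (q, x) :=
        ContinuousAt.comp (g := Prod.snd) (f := fun p : (V × C2) × E => F.triv (D.x j) p.2)
          (x := (q, x)) continuous_snd.continuousAt c3
      have c5 : ContinuousAt (fun p : (V × C2) × E =>
          ‖D.k j r p.1.1 p.2 - p.1.2‖) (q, x) := by
        have hc6 : Continuous fun p : (V × C2) × E => p.1.2 := by fun_prop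
        exact (((c1.clm_apply (c4.sub c2)).const_smul ((r⁻¹ : ℝ) : ℂ)).sub
          hc6.continuousAt).norm
      have e2 : ∀ᶠ p : (V × C2) × E in 𝓝 (q, x), ‖D.k j r p.1.1 p.2 - p.1.2‖ < δ :=
        c5.eventually (Iio_mem_nhds h2)
      filter_upwards [e1, e2] with p h3 h4 _ using ⟨h3, h4⟩
    · have e1 : ∀ᶠ p : (V × C2) × E in 𝓝 (q, x), p.1.1 ∈ (D.N j)ᶜ :=
        hc1.continuousAt.eventually ((D.compact j).isClosed.isOpen_compl.mem_nhds hj)
      filter_upwards [e1] with p h3 h4 using absurd h4 h3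
  filter_upwards [eventually_all.2 h] with p hp
  exact hp

end Vale.Agent.P290.R2.H596
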