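import Vale.Agent.P290.R2.H596.Move
import Vale.Agent.P290.R2.H596.Merge2
import Vale.Agent.P290.R2.H596.Tube2
import Vale.Agent.P290.R2.H596.Step
import Vale.Agent.P290.R2.H596.Local
import Vale.Agent.P290.R2.H596.OkaV
import Vale.Agent.P290.R2.H596.Surj
import Vale.Agent.P290.R2.H596.Nearby
import Vale.Agent.P290.R2.H596.Fibres

/-! Interpolation by holomorphic maps from large balls. -/

open Set Filter Metric
open scoped Topology

namespace Vale.Agent.P290.R2.H596

open Vale.Agent.P290 Vale.Agent.P290.K Vale.Agent.P290.H580 Vale.Agent.P290.H805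

theorem stLocal' : StLocal := stLocal (step (move merge tube near clOpen))

theorem stFibres : StFibres := fibres (nearby stLocal' okaV surj interp)

/-- the point of the fibre given by a point of the total space -/
theorem exists_lift {T E : Type} [TopologicalSpace T] [TopologicalSpace E] {F : Family T E} {t : T}
    {V : Type} [TopologicalSpace V] (y₀ : Fib F t) (g : V → E) :
    ∃ G : V → Fib F t, ∀ z, F.p (g z) = t → (G z).1 = g z := by
  classical
  refine ⟨fun z => if h : F.p (g z) = t then ⟨g z, h⟩ else y₀, fun z hz => ?_⟩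
  simp only [dif_pos hz]

theorem fh_lift {T E : Type} [TopologicalSpace T] [TopologicalSpace E] {F : Family T E} {t : T}
    {V : Type} [NormedAddCommGroup V] [NormedSpace ℂ V] {g : V → E} {G : V → Fib F t}
    (hG : ∀ z, F.p (g z) = t → (G z).1 = g z) {z : V} (h : FH F t g z) :
    FH F t (fun y => (G y).1) z := by
  refine h.congr ?_
  filter_upwards [h.1] with y hy using hG y hy

/-- composition with a holomorphic map -/
theorem holV_comp {T E : Type} [TopologicalSpace T] [TopologicalSpace E] {F : Family T E} {t : T}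
    {X : Type} [TopologicalSpace X] [ChartedSpace C2 X] {b : Fib F t → X} (hb : ∀ y, All.Hol b y)
    {m : ℕ} {G : (Fin m → ℂ) → Fib F t} {z : Fin m → ℂ} (hG : FH F t (fun y => (G y).1) z) :
    All.HolV (fun y => b (G y)) z := by
  have h1 : All.HolV G z := holV_fib_iff.2 hG
  obtain ⟨h2, h3⟩ := h1
  obtain ⟨h4, h5⟩ := hb (G z)
  refine ⟨ContinuousAt.comp (g := b) (f := G) h4 h2, ?_⟩
  have h6 : DifferentiableAt ℂ (fun y => chartAt C2 (b (G z))
      (b ((chartAt C2 (G z)).symm (chartAt C2 (G z) (G y))))) z :=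
    DifferentiableAt.comp (g := fun w => chartAt C2 (b (G z)) (b ((chartAt C2 (G z)).symm w)))
      (f := fun y => chartAt C2 (G z) (G y)) z h5 h3
  refine h6.congr_of_eventuallyEq ?_
  have h7 : ∀ᶠ y in 𝓝 z, G y ∈ (chartAt C2 (G z)).source :=
    h2.eventually ((chartAt C2 (G z)).open_source.mem_nhds (mem_chart_source C2 (G z)))
  filter_upwards [h7] with y hy
  rw [(chartAt C2 (G z)).left_inv hy]

theorem part1 {T E : Type} [TopologicalSpace T] [TopologicalSpace E] (F : Family T E)
    (hp : IsProperMap F.p) (t₀ : T) (h2 : T2Space (Fib F t₀)) (hc : ConnectedSpace (Fib F t₀))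
    (hO : All.IsOka (Fib F t₀)) (X : Type) [TopologicalSpace X] [ChartedSpace C2 X]
    (hX : t₀ ∈ closure {t | ∃ b : Fib F t → X, (∀ y, All.Hol b y) ∧ Function.Surjective b})
    (m k : ℕ) (z : Fin (k + 1) → Fin m → ℂ) (hz : Function.Injective z) (x : Fin (k + 1) → X)
    (S : Set (Fin m → ℂ)) (hS : Bornology.IsBounded S) :
    ∃ g : (Fin m → ℂ) → X, (∀ y ∈ S, All.HolV g y) ∧ ∀ j, g (z j) = x j := by
  obtain ⟨ρ, hρ⟩ := hS.subset_closedBall 0
  obtain ⟨ρ', hρ'⟩ := (Set.finite_range z).isBounded.subset_closedBall 0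
  have h1 := stFibres T E F hp t₀ h2 hc hO m k z hz (max ρ ρ')
  obtain ⟨t, ht, b, hb, hbs⟩ := mem_closure_iff_nhds.1 hX _ h1
  choose x' hx' using fun j => hbs (x j)
  obtain ⟨g, hg1, hg2⟩ := ht (fun j => (x' j).1) fun j => (x' j).prop
  obtain ⟨G, hG⟩ := exists_lift (x' 0) g
  have hsub : closedBall (0 : Fin m → ℂ) ρ ⊆ closedBall 0 (max ρ ρ') :=
    closedBall_subset_closedBall (le_max_left _ _)
  have hsub' : closedBall (0 : Fin m → ℂ) ρ' ⊆ closedBall 0 (max ρ ρ') :=
    closedBall_subset_closedBall (le_max_right _ _)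
  refine ⟨fun y => b (G y), fun y hy => holV_comp hb (fh_lift hG (hg1 y (hsub (hρ hy)))),
    fun j => ?_⟩
  have h3 : F.p (g (z j)) = t := (hg1 (z j) (hsub' (hρ' (mem_range_self j)))).1.self_of_nhds
  have h4 : G (z j) = x' j := by
    apply Fib.ext
    rw [hG _ h3, hg2 j]
  simp only [h4, hx' j]

end Vale.Agent.P290.R2.H596
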