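import Vale.Agent.P290.R2.H596.Spec2
import Vale.Agent.P290.R2.H596.Fin1

/-! Interpolation by holomorphic maps from large balls with prescribed Jacobian determinants. -/

open Set Filter Metric
open scoped Topology

namespace Vale.Agent.P290.R2.H596

open Vale.Agent.P290 Vale.Agent.P290.K Vale.Agent.P290.H580 Vale.Agent.P290.H805

theorem part2 (hConn : ∀ (T E : Type) [TopologicalSpace T] [TopologicalSpace E] (F : Family T E),
      IsProperMap F.p → ∀ t₀ : T, ConnectedSpace (Fib F t₀) →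
        ∀ᶠ t in 𝓝 t₀, ConnectedSpace (Fib F t))
    (hF : StFibresJet) (hC : StConst) (hL : StLower) (hK : StComp)
    {T E : Type} [TopologicalSpace T] [TopologicalSpace E] (F : Family T E)
    (hp : IsProperMap F.p) (vol : E → T × C2 → ℂ) (hvol : RelForm F vol)
    (t₀ : T) (h2 : T2Space (Fib F t₀)) (hc : ConnectedSpace (Fib F t₀))
    (hO : All.IsOka (Fib F t₀)) (X : All.K3)
    (hX : t₀ ∈ closure {t | ∃ b : Fib F t → X.X, (∀ y, All.Hol b y) ∧ Function.Surjective b})
    (k : ℕ) (z : Fin (k + 1) → C2) (hz : Function.Injective z) (x : Fin (k + 1) → X.X)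
    (d : Fin (k + 1) → ℂ) (S : Set C2) (hS : Bornology.IsBounded S) :
    ∃ g : C2 → X.X, (∀ y ∈ S, All.Hol g y) ∧ ∀ j, All.Hol g (z j) ∧ g (z j) = x j ∧
      X.vol (chartAt C2 (x j)) (chartAt C2 (x j) (x j)) *
        (fderiv ℂ (fun y => chartAt C2 (x j) (g y)) (z j)).det = d j := by
  obtain ⟨ρ, hρ⟩ := hS.subset_closedBall 0
  obtain ⟨c, hc0, hlow⟩ := hL T E F hp vol hvol t₀ X
  obtain ⟨M, hM⟩ : ∃ M : ℝ, ∀ j, ‖d j‖ ≤ M := by
    obtain ⟨M, hM⟩ := (Set.finite_range fun j => ‖d j‖).bddAbove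
    exact ⟨M, fun j => hM (mem_range_self j)⟩
  have h1 := hF T E F hp vol hvol t₀ h2 hc hO k z hz ρ (M / c)
  obtain ⟨t, ⟨⟨ht, htl⟩, htc⟩, b, hb, hbs⟩ := mem_closure_iff_nhds.1 hX _
    ((h1.and hlow).and (hConn T E F hp t₀ hc))
  obtain ⟨lam, hlam⟩ := hC T E F vol hvol t (compact_fib F hp t) htc X b hb
  have hl := htl b hb hbs lam hlam
  have hl0 : lam ≠ 0 := by
    intro h0
    rw [h0, norm_zero] at hl
    linarith
  choose x' hx' using fun j => hbs (x j)
  obtain ⟨g, hg1, hg2⟩ := ht (fun j => (x' j).1) (fun j => (x' j).prop) (fun j => d j / lam)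
    (fun j => by
      rw [norm_div]
      exact div_le_div₀ ((norm_nonneg _).trans (hM j)) (hM j) hc0 hl)
  obtain ⟨G, hG⟩ := exists_lift (x' 0) g
  have hjac : ∀ y, FH F t g y → jac F vol t (fun y => (G y).1) y = jac F vol t g y := by
    intro y hy
    have e1 : (fun y => (G y).1) =ᶠ[𝓝 y] g := by
      filter_upwards [hy.1] with y hy using hG y hy
    have e2 : (G y).1 = g y := e1.self_of_nhds
    have e3 : (fun v => (F.triv (g y) (G v).1).2) =ᶠ[𝓝 y] fun v => (F.triv (g y) (g v)).2 := by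
      filter_upwards [e1] with v hv
      rw [hv]
    simp only [jac, e2]
    rw [e3.fderiv_eq]
  refine ⟨fun y => b (G y), fun y hy => ?_, fun j => ?_⟩
  · exact (hK T E F vol hvol t X b hb lam hlam G y (fh_lift hG (hg1 y (hρ hy)))).1
  · obtain ⟨h3, h4, h5⟩ := hg2 j
    have h6 : G (z j) = x' j := by
      apply Fib.ext
      rw [hG _ h3.1.self_of_nhds, h4]
    obtain ⟨h7, h8⟩ := hK T E F vol hvol t X b hb lam hlam G (z j) (fh_lift hG h3)
    refine ⟨h7, by simp only [h6, hx' j], ?_⟩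
    have h9 : b (G (z j)) = x j := by rw [h6, hx' j]
    rw [h9, hjac _ h3, h5, mul_div_cancel₀ _ hl0] at h8
    exact h8

end Vale.Agent.P290.R2.H596
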