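import Vale.Agent.P290.R2.H596.Spec3
import Vale.Agent.P290.R2.H596.Fin2

/-! Symplectic local biholomorphisms from large polydiscs to K3 surfaces. -/

open Set Filter Metric
open scoped Topology

namespace Vale.Agent.P290.R2.H596

open Vale.Agent.P290 Vale.Agent.P290.K Vale.Agent.P290.H580 Vale.Agent.P290.H805

theorem part3 (hConn : ∀ (T E : Type) [TopologicalSpace T] [TopologicalSpace E] (F : Family T E),
      IsProperMap F.p → ∀ t₀ : T, ConnectedSpace (Fib F t₀) →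
        ∀ᶠ t in 𝓝 t₀, ConnectedSpace (Fib F t))
    (hF : StSymFibres) (hC : StConst) (hL : StLower) (hK : StComp)
    {T E : Type} [TopologicalSpace T] [TopologicalSpace E] (F : Family T E)
    (hp : IsProperMap F.p) (vol : E → T × C2 → ℂ) (hvol : RelForm F vol)
    (t₀ : T) (hc : ConnectedSpace (Fib F t₀))
    (hsym : ∀ x, F.p x = t₀ → ∀ R > (0 : ℝ), SB F vol t₀ x R) (X : All.K3)
    (hX : t₀ ∈ closure {t | ∃ b : Fib F t → X.X, (∀ y, All.Hol b y) ∧ Function.Surjective b})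
    (x : X.X) (S : Set C2) (hS : Bornology.IsBounded S) :
    ∃ g : C2 → X.X, g 0 = x ∧ ∀ y ∈ S, All.Hol g y ∧
      X.vol (chartAt C2 (g y)) (chartAt C2 (g y) (g y)) *
        (fderiv ℂ (fun v => chartAt C2 (g y) (g v)) y).det = 1 := by
  obtain ⟨ρ, hρ⟩ := hS.subset_closedBall 0
  obtain ⟨c, hc0, hlow⟩ := hL T E F hp vol hvol t₀ X
  set ρ₁ : ℝ := max ρ 1 with hρ₁
  have hρ₁0 : 0 < ρ₁ := lt_of_lt_of_le one_pos (le_max_right _ _)
  set R : ℝ := max (ρ₁ / c) ρ₁ with hR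
  have hR0 : 0 < R := lt_of_lt_of_le hρ₁0 (le_max_right _ _)
  have h1 := hF T E F hp vol hvol t₀ hsym R hR0
  obtain ⟨t, ⟨⟨ht, htl⟩, htc⟩, b, hb, hbs⟩ := mem_closure_iff_nhds.1 hX _
    ((h1.and hlow).and (hConn T E F hp t₀ hc))
  obtain ⟨lam, hlam⟩ := hC T E F vol hvol t (compact_fib F hp t) htc X b hb
  have hl := htl b hb hbs lam hlam
  have hl0 : lam ≠ 0 := by
    intro h0
    rw [h0, norm_zero] at hl
    linarith
  obtain ⟨x', hx'⟩ := hbs x
  obtain ⟨g, hg0, hg⟩ := ht x'.1 x'.prop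
  obtain ⟨G, hG⟩ := exists_lift x' g
  set A : C2 →L[ℂ] C2 := (lam⁻¹ • ContinuousLinearMap.id ℂ ℂ).prodMap
    (ContinuousLinearMap.id ℂ ℂ) with hA
  have hA1 : ∀ y : C2, A y = (lam⁻¹ * y.1, y.2) := fun y => rfl
  have hA0 : A 0 = 0 := map_zero A
  have hAdet : A.det = lam⁻¹ := by
    have h2 : A.det = LinearMap.det ((lam⁻¹ • LinearMap.id : ℂ →ₗ[ℂ] ℂ).prodMap
      (LinearMap.id : ℂ →ₗ[ℂ] ℂ)) := rfl
    rw [h2, LinearMap.det_prodMap, LinearMap.det_smul, LinearMap.det_id]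
    simp
  have hAn : ∀ y ∈ S, A y ∈ closedBall (0 : C2) R := by
    intro y hy
    have h2 := mem_closedBall_zero_iff.1 (hρ hy)
    have h3 : ‖y‖ ≤ ρ₁ := h2.trans (le_max_left _ _)
    rw [mem_closedBall_zero_iff, hA1, Prod.norm_def, max_le_iff]
    constructor
    · simp only [norm_mul, norm_inv]
      have h4 : ‖y.1‖ ≤ ρ₁ := (norm_fst_le y).trans h3
      calc ‖lam‖⁻¹ * ‖y.1‖ ≤ c⁻¹ * ρ₁ :=
            mul_le_mul (inv_anti₀ hc0 hl) h4 (norm_nonneg _) (inv_nonneg.2 hc0.le)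
        _ = ρ₁ / c := by rw [div_eq_inv_mul]
        _ ≤ R := le_max_left _ _
    · exact ((norm_snd_le y).trans h3).trans (le_max_right _ _)
  have hlift : ∀ y, F.p (g y) = t → (G y).1 = g y := hG
  have key : ∀ y ∈ S, All.Hol (fun v => b (G (A v))) y ∧
      X.vol (chartAt C2 (b (G (A y)))) (chartAt C2 (b (G (A y))) (b (G (A y)))) *
        (fderiv ℂ (fun v => chartAt C2 (b (G (A y))) (b (G (A v)))) y).det = 1 := by
    intro y hy
    obtain ⟨h2, h3⟩ := hg (A y) (hAn y hy)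
    have h4 : FH F t (fun v => (G v).1) (A y) := fh_lift hG h2
    have h5 : FH F t (fun v => (G (A v)).1) y :=
      FH.comp (u := fun v => (G v).1) (q := fun v => A v) h4 A.differentiableAt
    obtain ⟨h6, h7⟩ := hK T E F vol hvol t X b hb lam hlam (fun v => G (A v)) y h5
    refine ⟨h6, ?_⟩
    rw [h7]
    have e1 : (fun v => (G v).1) =ᶠ[𝓝 (A y)] g := by
      filter_upwards [h2.1] with v hv using hG v hv
    have e2 : (G (A y)).1 = g (A y) := e1.self_of_nhds
    have e3 : (fun v => (F.triv (g (A y)) (G (A v)).1).2) =ᶠ[𝓝 y]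
        (fun v => (F.triv (g (A y)) (g v)).2) ∘ A := by
      filter_upwards [A.continuous.continuousAt.eventually e1] with v hv
      simp only [Function.comp]
      rw [hv]
    have e4 : DifferentiableAt ℂ (fun v => (F.triv (g (A y)) (g v)).2) (A y) := h2.2.2
    have e5 : fderiv ℂ (fun v => (F.triv (g (A y)) (G (A v)).1).2) y =
        (fderiv ℂ (fun v => (F.triv (g (A y)) (g v)).2) (A y)).comp A := by
      rw [e3.fderiv_eq, fderiv_comp y e4 A.differentiableAt, A.fderiv]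
    have e6 : ((fderiv ℂ (fun v => (F.triv (g (A y)) (g v)).2) (A y)).comp A).det =
        (fderiv ℂ (fun v => (F.triv (g (A y)) (g v)).2) (A y)).det * A.det :=
      LinearMap.det_comp _ _
    simp only [jac] at h3 ⊢
    rw [e2, e5, e6, hAdet]
    calc _ = (vol (g (A y)) (t, (F.triv (g (A y)) (g (A y))).2) *
          (fderiv ℂ (fun v => (F.triv (g (A y)) (g v)).2) (A y)).det) * (lam * lam⁻¹) := by ring
      _ = 1 := by rw [h3, mul_inv_cancel₀ hl0, one_mul]
  refine ⟨fun v => b (G (A v)), ?_, key⟩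
  have h8 : F.p (g 0) = t := by rw [hg0]; exact x'.prop
  have h9 : G 0 = x' := by
    apply Fib.ext
    rw [hG 0 h8, hg0]
  simp only [hA0, h9, hx']

end Vale.Agent.P290.R2.H596
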