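import Vale.Agent.P290.R2.H596.Fin3
import Vale.Agent.P290.R2.H596.Fin23
import Vale.Agent.P290.R2.H514.JacClose
import Vale.Agent.P290.R2.H236.Sym
import Vale.Agent.P290.R2.H701.SymFibres

/-! Assembly of the third clause. -/

open Set Filter Metric
open scoped Topology

namespace Vale.Agent.P290.R2.H596

open Vale.Agent.P290 Vale.Agent.P290.K Vale.Agent.P290.H580 Vale.Agent.P290.H805

theorem stSymFibres (hFlat : StFlat) : StSymFibres :=
  H701.symFibres (H236.symNear H514.stJac H514.jacClose hFlat surj)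

theorem final3' (hFlat : StFlat) (hEx : StSymExist)
    {T E : Type} [TopologicalSpace T] [TopologicalSpace E] (F : Family T E)
    (hp : IsProperMap F.p) (vol : E → T × C2 → ℂ) (hvol : RelForm F vol)
    (t₀ : T) (h2 : T2Space (Fib F t₀)) (hc : ConnectedSpace (Fib F t₀))
    (hπ : ∀ x : Fib F t₀, ∃ (C : All.RS) (π : Fib F t₀ → C.C), (∀ y, All.HolC π y) ∧
      ¬ All.Critical π x) (X : All.K3)
    (hX : t₀ ∈ closure {t | ∃ b : Fib F t → X.X, (∀ y, All.Hol b y) ∧ Function.Surjective b})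
    (x : X.X) (S : Set C2) (hS : Bornology.IsBounded S) :
    ∃ g : C2 → X.X, g 0 = x ∧ ∀ y ∈ S, All.Hol g y ∧
      X.vol (chartAt C2 (g y)) (chartAt C2 (g y) (g y)) *
        (fderiv ℂ (fun v => chartAt C2 (g y) (g v)) y).det = 1 := by
  refine part3 (fun T E _ _ F hp t₀ h => H428.conn T E F hp t₀ h) (stSymFibres hFlat)
    H762.stConst H514.lower H69.comp F hp vol hvol t₀ hc (fun x hx R hR => ?_) X hX x S hS
  exact hEx T E F vol hvol t₀ h2 (compact_fib F hp t₀) ⟨x, hx⟩ (hπ ⟨x, hx⟩) R hR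

end Vale.Agent.P290.R2.H596
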