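import Vale.Agent.P290.R2.H596.Spec

/-! Moving the values of a map at the points where a linear form attains its maximum. -/

open Set Filter Metric
open scoped Topology

namespace Vale.Agent.P290.R2.H596

open Vale.Agent.P290 Vale.Agent.P290.K Vale.Agent.P290.H580 Vale.Agent.P290.H805

theorem cl_mono {T E : Type} [TopologicalSpace T] [TopologicalSpace E] {F : Family T E}
    {V : Type} [NormedAddCommGroup V] [NormedSpace ℂ V] {t₀ : T} {D : Tube F V t₀} {ε ε' r : ℝ}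
    {q : V × C2} {x : E} (h : D.Cl ε r q x) (hε : ε ≤ ε') : D.Cl ε' r q x :=
  fun j hj => ⟨(h j hj).1, (h j hj).2.trans_le hε⟩

theorem move (hM : StMerge) (hT : StTube) (hN : StNear) (hC : StClOpen) : StMove := by
  intro T E _ _ F V _ _ _ t₀ K hK g hg ℓ hℓ e h hh hy hyh η hη 𝒪 h𝒪
  classical
  have : ProperSpace V := FiniteDimensional.proper ℂ V
  obtain ⟨D, hDg, hDK⟩ := exists_tube hK hg
  have hℓc : Continuous fun z => (ℓ z).re := Complex.continuous_re.comp ℓ.continuous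
  obtain ⟨R, hRo, hKR, hR⟩ := mem_nhdsSet_iff_exists.1 hg
  have hR' : ∀ z ∈ R, FH F t₀ g z := fun z hz => hR hz
  have hgc : ContinuousOn g R := fun z hz => (hR' z hz).2.1.continuousWithinAt
  -- the good set
  set 𝒪₁ : Set (V × E) := {q | q.2 ∈ (F.triv e).source ∧ ∀ s ∈ closedBall (0 : ℂ) 1,
    (t₀, (1 - s) • (F.triv e q.2).2 + s • h q.1) ∈ (F.triv e).target} with h𝒪₁
  have c1 : ∀ z ∈ K, (ℓ z).re = 1 → 𝒪₁ ∈ 𝓝 (z, g z) := by
    intro z hz hz1
    have a1 : ∀ᶠ q : V × E in 𝓝 (z, g z), q.2 ∈ (F.triv e).source :=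
      continuous_snd.continuousAt.eventually ((F.triv e).open_source.mem_nhds (hy z hz hz1))
    have a2 : ∀ᶠ q : V × E in 𝓝 (z, g z), ∀ s ∈ closedBall (0 : ℂ) 1,
        (t₀, (1 - s) • (F.triv e q.2).2 + s • h q.1) ∈ (F.triv e).target := by
      refine (isCompact_closedBall (0 : ℂ) 1).eventually_forall_of_forall_eventually fun s hs => ?_
      have b1 : ContinuousAt (fun p : (V × E) × ℂ => (F.triv e p.1.2).2) ((z, g z), s) := by
        have b2 : ContinuousAt (F.triv e) (g z) := (F.triv e).continuousAt (hy z hz hz1)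
        have b3 : ContinuousAt (fun p : (V × E) × ℂ => F.triv e p.1.2) ((z, g z), s) :=
          ContinuousAt.comp (g := F.triv e) (f := fun p : (V × E) × ℂ => p.1.2) b2
            (continuous_snd.comp continuous_fst).continuousAt
        exact continuous_snd.continuousAt.comp b3
      have b4 : ContinuousAt (fun p : (V × E) × ℂ => h p.1.1) ((z, g z), s) :=
        (hh.continuous.comp (continuous_fst.comp continuous_fst)).continuousAt
      have b5 : ContinuousAt (fun p : (V × E) × ℂ => ((t₀, (1 - p.2) • (F.triv e p.1.2).2 +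
          p.2 • h p.1.1) : T × C2)) ((z, g z), s) :=
        continuousAt_const.prodMk (((continuousAt_const.sub continuous_snd.continuousAt).smul
          b1).add (continuous_snd.continuousAt.smul b4))
      exact b5.eventually ((F.triv e).open_target.mem_nhds
        (hyh z hz hz1 s (mem_closedBall_zero_iff.1 hs)))
    filter_upwards [a1, a2] with q h1 h2 using ⟨h1, h2⟩
  set Ω : Set V := R ∩ (fun z => (z, g z)) ⁻¹' (interior 𝒪₁) with hΩ
  have hΩo : IsOpen Ω := (continuousOn_id.prodMk hgc).isOpen_inter_preimage hRo isOpen_interior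
  have hΩ1 : ∀ z ∈ Ω, 𝒪₁ ∈ 𝓝 (z, g z) := fun z hz => mem_interior_iff_mem_nhds.1 hz.2
  obtain ⟨η₁, hη₁, hη₁η, hc3⟩ : ∃ η₁ > 0, η₁ ≤ η ∧ ∀ z ∈ K, z ∉ Ω → (ℓ z).re < 1 - 3 * η₁ := by
    have hC' : IsCompact (K \ Ω) := hK.1.diff hΩo
    rcases (K \ Ω).eq_empty_or_nonempty with he | hne
    · refine ⟨η, hη, le_rfl, fun z hz hz' => ?_⟩
      exact absurd (show z ∈ K \ Ω from ⟨hz, hz'⟩) (he ▸ notMem_empty z)
    · obtain ⟨z₁, hz₁, hmax⟩ := hC'.exists_isMaxOn hne hℓc.continuousOn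
      have hm : (ℓ z₁).re < 1 := by
        refine lt_of_le_of_ne (hℓ z₁ hz₁.1) fun h1 => hz₁.2 ?_
        exact ⟨hKR hz₁.1, mem_interior_iff_mem_nhds.2 (c1 z₁ hz₁.1 h1)⟩
      refine ⟨min η ((1 - (ℓ z₁).re) / 4), lt_min hη (by linarith), min_le_left _ _,
        fun z hz hz' => ?_⟩
      have h1 : (ℓ z).re ≤ (ℓ z₁).re := hmax (show z ∈ K \ Ω from ⟨hz, hz'⟩)
      have h2 : min η ((1 - (ℓ z₁).re) / 4) ≤ (1 - (ℓ z₁).re) / 4 := min_le_right _ _
      linarith
  obtain ⟨κ, hκ, hκS⟩ := hK.1.exists_cthickening_subset_open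
    (t := (⋃ j, interior (D.N j)) ∩ ({z | (ℓ z).re < 1 - 3 * η₁} ∪ Ω))
    ((isOpen_iUnion fun j => isOpen_interior).inter
      ((isOpen_lt hℓc continuous_const).union hΩo))
    (fun z hz => ⟨hDK hz, by
      by_cases hzΩ : z ∈ Ω
      · exact Or.inr hzΩ
      · exact Or.inl (hc3 z hz hzΩ)⟩)
  set K₁ : Set V := cthickening κ K with hK₁
  set K₀ : Set V := thickening κ K with hK₀
  have gK₁ : Good K₁ := ⟨hK.1.cthickening, hK.2.cthickening κ⟩
  have hK₀₁ : K₀ ⊆ K₁ := thickening_subset_cthickening κ K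
  have hKK₀ : K ⊆ K₀ := self_subset_thickening hκ K
  have hK₁N : K₁ ⊆ ⋃ j, interior (D.N j) := fun z hz => (hκS hz).1
  have hK₁Ω : ∀ z ∈ K₁, 1 - 3 * η₁ ≤ (ℓ z).re → 𝒪₁ ∈ 𝓝 (z, g z) := by
    intro z hz h1
    rcases (hκS hz).2 with h2 | h2
    · exact absurd h2 (not_lt.2 h1)
    · exact hΩ1 z h2
  set 𝒪₂ : Set (V × E) := {q | 1 - 3 * η₁ ≤ (ℓ q.1).re → q ∈ 𝒪₁} ∩ {q | q.1 ∈ K → q ∈ 𝒪} with h𝒪₂
  have hO2 : ∀ z ∈ K₁, 𝒪₂ ∈ 𝓝 (z, D.u₀ z) := by
    intro z hz
    rw [hDg]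
    refine inter_mem ?_ ?_
    · rcases le_or_gt (1 - 3 * η₁) (ℓ z).re with h1 | h1
      · exact mem_of_superset (hK₁Ω z hz h1) fun q hq _ => hq
      · have h2 : {q : V × E | (ℓ q.1).re < 1 - 3 * η₁} ∈ 𝓝 (z, g z) :=
          (isOpen_lt (hℓc.comp continuous_fst) continuous_const).mem_nhds h1
        exact mem_of_superset h2 fun q hq hq' => absurd hq (not_lt.2 hq')
    · by_cases hzK : z ∈ K
      · exact mem_of_superset (h𝒪 z hzK) fun q hq _ => hq
      · have h2 : Prod.fst ⁻¹' Kᶜ ∈ 𝓝 (z, g z) :=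
          (hK.1.isClosed.isOpen_compl.preimage continuous_fst).mem_nhds hzK
        exact mem_of_superset h2 fun q hq hq' => absurd hq' hq
  -- the sets of the gluing
  have hcl : ∀ c : ℝ, Convex ℝ {z : V | (ℓ z).re ≤ c} := fun c =>
    convex_halfSpace_le (f := fun z : V => (ℓ z).re)
      (Complex.reCLM.comp (ℓ.restrictScalars ℝ)).isLinear c
  have hcg : ∀ c : ℝ, Convex ℝ {z : V | c ≤ (ℓ z).re} := fun c =>
    convex_halfSpace_ge (f := fun z : V => (ℓ z).re)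
      (Complex.reCLM.comp (ℓ.restrictScalars ℝ)).isLinear c
  set A : Set (V × C2) := (K ∩ {z | (ℓ z).re ≤ 1 - η₁}) ×ˢ closedBall (0 : C2) (1 / 4) with hA
  set B : Set (V × C2) := (K ∩ {z | 1 - 2 * η₁ ≤ (ℓ z).re}) ×ˢ closedBall (0 : C2) (1 / 4) with hB
  set O : Set (V × C2) := (K₀ ∩ {z | 1 - 3 * η₁ < (ℓ z).re ∧ (ℓ z).re < 1 - η₁ / 2}) ×ˢ
    ball (0 : C2) 1 with hO
  have gA : Good A := ⟨(hK.1.inter_right (isClosed_le hℓc continuous_const)).prod
    (isCompact_closedBall _ _), (hK.2.inter (hcl _)).prod (convex_closedBall _ _)⟩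
  have gB : Good B := ⟨(hK.1.inter_right (isClosed_le continuous_const hℓc)).prod
    (isCompact_closedBall _ _), (hK.2.inter (hcg _)).prod (convex_closedBall _ _)⟩
  have hAB : A ∪ B = K ×ˢ closedBall (0 : C2) (1 / 4) := by
    ext q
    simp only [hA, hB, mem_union, mem_prod, mem_inter_iff, mem_ofPred_eq]
    constructor
    · rintro (h1 | h1)
      · exact ⟨h1.1.1, h1.2⟩
      · exact ⟨h1.1.1, h1.2⟩
    · rintro ⟨h1, h2⟩
      rcases le_or_gt (ℓ q.1).re (1 - η₁) with h3 | h3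
      · exact Or.inl ⟨⟨h1, h3⟩, h2⟩
      · exact Or.inr ⟨⟨h1, by linarith⟩, h2⟩
  have hconv : Convex ℝ (A ∪ B) := by
    rw [hAB]; exact hK.2.prod (convex_closedBall _ _)
  have hOo : IsOpen O := (isOpen_thickening.inter ((isOpen_lt continuous_const hℓc).inter
    (isOpen_lt hℓc continuous_const))).prod isOpen_ball
  have hABO : A ∩ B ⊆ O := by
    rintro q ⟨⟨⟨h1, h2⟩, h3⟩, ⟨⟨-, h4⟩, -⟩⟩
    simp only [mem_ofPred_eq] at h2 h4
    refine ⟨⟨hKK₀ h1, ?_, ?_⟩, closedBall_subset_ball (by norm_num) h3⟩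
    · linarith
    · linarith
  have hcov : ∀ q ∈ O, ∃ j, q.1 ∈ D.N j := by
    intro q hq
    obtain ⟨j, hj⟩ := mem_iUnion.1 (hK₁N (hK₀₁ hq.1.1))
    exact ⟨j, interior_subset hj⟩
  obtain ⟨δ, hδ, hmerge⟩ := hM T E F V t₀ D A B O gA gB hconv hOo hABO hcov (1 / 2) (by norm_num)
    (1 / 4) (by norm_num)
  obtain ⟨r₀, hr₀, htube⟩ := hT T E F V t₀ D K₁ gK₁ hK₁N (min δ 1) (lt_min hδ one_pos)
  obtain ⟨r₁, hr₁, hnear⟩ := hN T E F V t₀ D K₁ gK₁.1 hK₁N 𝒪₂ hO2
  set r := min r₀ r₁ / 2 with hr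
  have hr0 : 0 < r := by positivity
  have hrr₀ : r < r₀ := by
    have : min r₀ r₁ ≤ r₀ := min_le_left _ _
    rw [hr]; linarith
  have hrr₁ : r < r₁ := by
    have : min r₀ r₁ ≤ r₁ := min_le_right _ _
    rw [hr]; linarith
  obtain ⟨U, hU, hUc⟩ := htube r hr0 hrr₀
  have hUF : ∀ q ∈ K₁ ×ˢ closedBall (0 : C2) 1, FH F t₀ U q := fun q hq => hU.self_of_nhdsSet q hq
  have hUp : ∀ q ∈ K₁ ×ˢ closedBall (0 : C2) 1, F.p (U q) = t₀ := fun q hq =>
    (hUF q hq).1.self_of_nhds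
  have hUO : ∀ q ∈ K₁ ×ˢ closedBall (0 : C2) 1, (q.1, U q) ∈ 𝒪₂ := fun q hq =>
    hnear r hr0 hrr₁ q.1 hq.1 q.2 (mem_closedBall_zero_iff.1 hq.2) (U q) (hUp q hq)
      (cl_mono (hUc q hq) (min_le_right _ _))
  -- the interpolation
  set Y : V × C2 → C2 := fun q => (F.triv e (U q)).2 with hY
  have hYd : ∀ q, FH F t₀ U q → U q ∈ (F.triv e).source → DifferentiableAt ℂ Y q :=
    fun q h1 h2 => h1.diff h2
  set Ψ : (V × C2) × ℂ → E := fun p =>
    (F.triv e).symm (t₀, (1 - p.2) • Y p.1 + p.2 • h p.1.1) with hΨ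
  obtain ⟨s₀, hs₀, hs₀c⟩ := Tube.exists_uniform (X := V × C2) (P := ℂ)
    (K := (K₁ ∩ {z | 1 - 3 * η₁ ≤ (ℓ z).re}) ×ˢ closedBall (0 : C2) 1)
    ((gK₁.1.inter_right (isClosed_le continuous_const hℓc)).prod (isCompact_closedBall _ _)) 0
    {p : (V × C2) × ℂ | D.Cl δ r p.1 (Ψ p)} (by
      rintro q ⟨⟨hq1, hq2⟩, hq3⟩
      simp only [mem_ofPred_eq] at hq2
      have hqm : q ∈ K₁ ×ˢ closedBall (0 : C2) 1 := ⟨hq1, hq3⟩
      have d1 := (hUO q hqm).1 hq2
      have d2 : U q ∈ (F.triv e).source := d1.1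
      have d3 : F.triv e (U q) = (t₀, Y q) := by
        rw [F.mk_eq _ d2, hUp q hqm]
      have d4 : (t₀, Y q) ∈ (F.triv e).target := by
        rw [← d3]; exact (F.triv e).map_source d2
      have d5 : Ψ (q, 0) = U q := by
        simp only [hΨ, sub_zero, one_smul, zero_smul, add_zero]
        rw [← d3, (F.triv e).left_inv d2]
      have d6 : ContinuousAt Y q := (hYd q (hUF q hqm) d2).continuousAt
      have d7 : ContinuousAt (fun p : (V × C2) × ℂ => ((t₀, (1 - p.2) • Y p.1 + p.2 • h p.1.1) :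
          T × C2)) (q, 0) := by
        refine continuousAt_const.prodMk (((continuousAt_const.sub
          continuous_snd.continuousAt).smul ?_).add (continuous_snd.continuousAt.smul ?_))
        · exact ContinuousAt.comp (g := Y) (f := fun p : (V × C2) × ℂ => p.1) (x := (q, 0)) d6
            continuous_fst.continuousAt
        · exact (hh.continuous.comp (continuous_fst.comp continuous_fst)).continuousAt
      have d8 : ContinuousAt (F.triv e).symm ((t₀, (1 - (0 : ℂ)) • Y q + (0 : ℂ) • h q.1) :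
          T × C2) := by
        refine (F.triv e).continuousAt_symm ?_
        simpa using d4
      have d9 : ContinuousAt Ψ (q, 0) :=
        ContinuousAt.comp (g := (F.triv e).symm) (f := fun p : (V × C2) × ℂ =>
          ((t₀, (1 - p.2) • Y p.1 + p.2 • h p.1.1) : T × C2)) (x := (q, 0)) d8 d7
      have d10 : ContinuousAt (fun p : (V × C2) × ℂ => ((p.1, Ψ p) : (V × C2) × E)) (q, 0) :=
        continuous_fst.continuousAt.prodMk d9
      have d11 := hC T E F V t₀ D δ r q (U q) (cl_mono (hUc q hqm) (min_le_left _ _))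
      rw [← d5] at d11
      exact d10.eventually d11)
  obtain ⟨N, hNs⟩ := exists_pow_lt_of_lt_one hs₀ (y := Real.exp (-(η₁ / 2)))
    (Real.exp_lt_one_iff.2 (by linarith))
  set En : V → ℂ := fun z => Complex.exp ((N : ℂ) * (ℓ z - 1)) with hEn
  have hEnn : ∀ z, ‖En z‖ = Real.exp (N * ((ℓ z).re - 1)) := by
    intro z
    simp only [hEn, Complex.norm_exp]
    congr 1
    simp
  have hEn1 : ∀ z, (ℓ z).re ≤ 1 → ‖En z‖ ≤ 1 := by
    intro z hz
    rw [hEnn]
    refine Real.exp_le_one_iff.2 (mul_nonpos_of_nonneg_of_nonpos (Nat.cast_nonneg _) ?_)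
    linarith
  have hEn2 : ∀ z, (ℓ z).re ≤ 1 - η₁ / 2 → ‖En z‖ ≤ s₀ := by
    intro z hz
    rw [hEnn]
    refine le_trans ?_ hNs.le
    rw [← Real.exp_nat_mul]
    refine Real.exp_le_exp.2 (mul_le_mul_of_nonneg_left ?_ (Nat.cast_nonneg _))
    linarith
  have hEnd : Differentiable ℂ En := by
    simp only [hEn]
    exact ((ℓ.differentiable.sub_const 1).const_mul (N : ℂ)).cexp
  set A' : Set (V × C2) := K₀ ×ˢ ball (0 : C2) 1 with hA'
  set B' : Set (V × C2) := O ∪ (K ∩ {z | 1 - 2 * η₁ ≤ (ℓ z).re}) ×ˢ ball (0 : C2) 1 with hB'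
  have hA'K : A' ⊆ K₁ ×ˢ closedBall (0 : C2) 1 := prod_mono hK₀₁ ball_subset_closedBall
  have hB'm : ∀ q ∈ B', q ∈ K₁ ×ˢ closedBall (0 : C2) 1 ∧ 1 - 3 * η₁ ≤ (ℓ q.1).re ∧
      (ℓ q.1).re ≤ 1 := by
    rintro q (hq | hq)
    · exact ⟨⟨hK₀₁ hq.1.1, ball_subset_closedBall hq.2⟩, hq.1.2.1.le, by
        have := hq.1.2.2
        linarith⟩
    · refine ⟨⟨hK₀₁ (hKK₀ hq.1.1), ball_subset_closedBall hq.2⟩, ?_, hℓ _ hq.1.1⟩
      have h2 : 1 - 2 * η₁ ≤ (ℓ q.1).re := hq.1.2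
      linarith
  set u' : V × C2 → E := fun q => (F.triv e).symm (t₀, (1 - En q.1) • Y q + En q.1 • h q.1)
    with hu'
  have hinner : ∀ q, DifferentiableAt ℂ Y q →
      DifferentiableAt ℂ (fun q : V × C2 => (1 - En q.1) • Y q + En q.1 • h q.1) q := by
    intro q hq
    have e1 : DifferentiableAt ℂ (fun q : V × C2 => En q.1) q :=
      (hEnd.comp differentiable_fst).differentiableAt
    have e2 : DifferentiableAt ℂ (fun q : V × C2 => h q.1) q :=
      (hh.comp differentiable_fst).differentiableAt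
    exact ((e1.const_sub 1).smul hq).add (e1.smul e2)
  have hu'F : ∀ᶠ q in 𝓝ˢ B', FH F t₀ u' q := by
    rw [eventually_nhdsSet_iff_forall]
    intro q hq
    obtain ⟨h1, h2, h3⟩ := hB'm q hq
    have d1 := (hUO q h1).1 h2
    have d2 : U q ∈ (F.triv e).source := d1.1
    have d3 : (t₀, (1 - En q.1) • Y q + En q.1 • h q.1) ∈ (F.triv e).target :=
      d1.2 (En q.1) (mem_closedBall_zero_iff.2 (hEn1 _ h3))
    have d4 : ContinuousAt (fun q : V × C2 => ((t₀, (1 - En q.1) • Y q + En q.1 • h q.1) :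
        T × C2)) q :=
      continuousAt_const.prodMk (hinner q (hYd q (hUF q h1) d2)).continuousAt
    filter_upwards [eventually_nhdsSet_iff_forall.1 hU q h1, (hUF q h1).eventually_source d2,
      d4.eventually ((F.triv e).open_target.mem_nhds d3)] with q' h4 h5 h6
    exact FH.mk_symm (hinner q' (hYd q' h4 h5)) h6
  obtain ⟨v, hv, hvA, hvB⟩ := hmerge r t₀ A' B' U u' hr0 (fun q hq => ⟨hq.1.1, hq.2⟩)
    subset_union_left
    (fun q hq c hc => ⟨hKK₀ hq.1.1, by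
      rw [mem_ball_zero_iff, sh_snd]
      have h1 := mem_closedBall_zero_iff.1 hq.2
      have h2 := norm_add_le q.2 c
      linarith⟩)
    (fun q hq c hc => Or.inr ⟨hq.1, by
      rw [mem_ball_zero_iff, sh_snd]
      have h1 := mem_closedBall_zero_iff.1 hq.2
      have h2 := norm_add_le q.2 c
      linarith⟩)
    (hU.filter_mono (nhdsSet_mono hA'K)) hu'F
    (fun q hq => cl_mono (hUc q ⟨hK₀₁ hq.1.1, ball_subset_closedBall hq.2⟩) (min_le_left _ _))
    (fun q hq => hs₀c q ⟨⟨hK₀₁ hq.1.1, hq.1.2.1.le⟩, ball_subset_closedBall hq.2⟩ (En q.1) (by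
      rw [dist_zero_right]
      exact hEn2 _ hq.1.2.2.le))
  rw [hAB] at hv
  refine ⟨fun z => v (z, 0), ?_, fun z hz hz1 => ?_, fun z hz hz1 => ?_⟩
  · rw [eventually_nhdsSet_iff_forall]
    intro z hz
    have hc : Continuous fun z : V => ((z, 0) : V × C2) := by fun_prop
    have h3 : ∀ᶠ q in 𝓝 ((z, 0) : V × C2), FH F t₀ v q :=
      (eventually_nhdsSet_iff_forall.1 hv) _ ⟨hz, mem_closedBall_self (by norm_num)⟩
    filter_upwards [hc.continuousAt.eventually h3] with x hx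
    exact FH.comp (u := v) (q := fun z : V => ((z, 0) : V × C2)) hx (by fun_prop)
  · obtain ⟨c, hc, hvc⟩ := hvA (z, 0) ⟨⟨hz, by
      simp only [mem_ofPred_eq]; linarith⟩, mem_closedBall_self (by norm_num)⟩
    simp only
    rw [hvc]
    have h1 := hUO (sh (z, 0) c) ⟨hK₀₁ (hKK₀ hz), by
      rw [mem_closedBall_zero_iff, sh_snd, zero_add]; linarith⟩
    exact h1.2 hz
  · obtain ⟨c, hc, hvc⟩ := hvB (z, 0) ⟨⟨hz, by
      simp only [mem_ofPred_eq, hz1, Complex.one_re]; linarith⟩, mem_closedBall_self (by norm_num)⟩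
    simp only
    rw [hvc]
    simp only [hu', hEn, sh_fst, hz1, sub_self, mul_zero, Complex.exp_zero, zero_smul, one_smul,
      zero_add]

end Vale.Agent.P290.R2.H596
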