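import Vale.Agent.P290.R2.H596.Spec

/-! R3: moving the values of a map at the point where a linear form is one. -/

open Set Filter Metric
open scoped Topology

namespace Vale.Agent.P290.R2.H596

open Vale.Agent.P290 Vale.Agent.P290.K Vale.Agent.P290.H580 Vale.Agent.P290.H805

section
variable {T E : Type} [TopologicalSpace T] [TopologicalSpace E]

/-- the pairs for which the whole interpolation stays in the chart at `y` -/
def PP (F : Family T E) {V : Type} (t₀ : T) (y : E) (h : V → C2) : Set (V × E) :=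
  {q | q.2 ∈ (F.triv y).source ∧ ∀ s : ℂ, ‖s‖ ≤ 1 →
    (t₀, (1 - s) • (F.triv y q.2).2 + s • h q.1) ∈ (F.triv y).target}

theorem PP_nhds (F : Family T E) {V : Type} [TopologicalSpace V] {t₀ : T} {y : E} {h : V → C2}
    (hc : Continuous h) {q : V × E} (hq : q ∈ PP F t₀ y h) : PP F t₀ y h ∈ 𝓝 q := by
  have h1 : ∀ᶠ p in 𝓝 q, p.2 ∈ (F.triv y).source :=
    continuous_snd.continuousAt.eventually ((F.triv y).open_source.mem_nhds hq.1)
  have h2 : ∀ᶠ p : V × E in 𝓝 q, ∀ s ∈ closedBall (0 : ℂ) 1,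
      (t₀, (1 - s) • (F.triv y p.2).2 + s • h p.1) ∈ (F.triv y).target := by
    refine (isCompact_closedBall (0 : ℂ) 1).eventually_forall_of_forall_eventually fun s hs => ?_
    have c0 : ContinuousAt (F.triv y) q.2 := (F.triv y).continuousAt hq.1
    have c1 : ContinuousAt (fun x : (V × E) × ℂ => (F.triv y x.1.2).2) (q, s) :=
      continuous_snd.continuousAt.comp (ContinuousAt.comp (g := F.triv y)
        (f := fun x : (V × E) × ℂ => x.1.2) (x := (q, s)) c0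
        (continuous_snd.comp continuous_fst).continuousAt)
    have c2 : ContinuousAt (fun x : (V × E) × ℂ => h x.1.1) (q, s) :=
      (hc.comp (continuous_fst.comp continuous_fst)).continuousAt
    have c3 : ContinuousAt (fun x : (V × E) × ℂ =>
        ((t₀, (1 - x.2) • (F.triv y x.1.2).2 + x.2 • h x.1.1) : T × C2)) (q, s) :=
      continuousAt_const.prodMk (((continuousAt_const.sub continuousAt_snd).smul c1).add
        (continuousAt_snd.smul c2))
    exact c3.eventually ((F.triv y).open_target.mem_nhds (hq.2 s (by simpa using hs)))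
  filter_upwards [h1, h2] with p hp1 hp2
  exact ⟨hp1, fun s hs => hp2 s (by simpa using hs)⟩

theorem cl_mono {F : Family T E} {V : Type} [NormedAddCommGroup V] [NormedSpace ℂ V] {t₀ : T}
    (D : Tube F V t₀) {δ δ' r : ℝ} (hle : δ ≤ δ') {q : V × C2} {x : E} (h : D.Cl δ r q x) :
    D.Cl δ' r q x := fun j hj => ⟨(h j hj).1, (h j hj).2.trans_le hle⟩

/-- the interpolation between a tube and a map given in the chart at `y` -/
noncomputable def Ph (F : Family T E) {V : Type} (t₀ : T) (y : E) (h : V → C2)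
    (u : V × C2 → E) (x : (V × C2) × ℂ) : E :=
  (F.triv y).symm (t₀, (1 - x.2) • (F.triv y (u x.1)).2 + x.2 • h x.1.1)

theorem Ph_zero {F : Family T E} {V : Type} {t₀ : T} {y : E} {h : V → C2}
    {u : V × C2 → E} {q : V × C2} (hs : u q ∈ (F.triv y).source) (hp : F.p (u q) = t₀) :
    Ph F t₀ y h u (q, 0) = u q := by
  have e : (t₀, (F.triv y (u q)).2) = F.triv y (u q) := by
    rw [F.mk_eq y hs, hp]
  simp only [Ph, sub_zero, one_smul, zero_smul, add_zero]
  rw [e, (F.triv y).left_inv hs]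

theorem Ph_FH {F : Family T E} {V : Type} [NormedAddCommGroup V] [NormedSpace ℂ V] {t₀ : T} {y : E}
    {h : V → C2} (hh : Differentiable ℂ h) {u : V × C2 → E} {s : V → ℂ}
    (hs : Differentiable ℂ s) {q : V × C2} (hu : ∀ᶠ p in 𝓝 q, FH F t₀ u p)
    (hq : (q.1, u q) ∈ PP F t₀ y h) (hsq : ‖s q.1‖ ≤ 1) :
    ∀ᶠ p in 𝓝 q, FH F t₀ (fun p => Ph F t₀ y h u (p, s p.1)) p := by
  have hd : ∀ p, FH F t₀ u p → u p ∈ (F.triv y).source → DifferentiableAt ℂ
      (fun p : V × C2 => (1 - s p.1) • (F.triv y (u p)).2 + s p.1 • h p.1) p := by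
    intro p h1 h2
    have h3 : DifferentiableAt ℂ (fun p : V × C2 => s p.1) p :=
      DifferentiableAt.comp (g := s) (f := fun p : V × C2 => p.1) p (hs _) (by fun_prop)
    have h4 : DifferentiableAt ℂ (fun p : V × C2 => h p.1) p :=
      DifferentiableAt.comp (g := h) (f := fun p : V × C2 => p.1) p (hh _) (by fun_prop)
    exact (((differentiableAt_const _).sub h3).smul (h1.diff h2)).add (h3.smul h4)
  have h0 := hu.self_of_nhds
  have e2 : ∀ᶠ p in 𝓝 q, u p ∈ (F.triv y).source := h0.eventually_source hq.1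
  have e3 : ∀ᶠ p : V × C2 in 𝓝 q, (t₀, (1 - s p.1) • (F.triv y (u p)).2 + s p.1 • h p.1) ∈
      (F.triv y).target := by
    have c : ContinuousAt (fun p : V × C2 =>
        ((t₀, (1 - s p.1) • (F.triv y (u p)).2 + s p.1 • h p.1) : T × C2)) q :=
      continuousAt_const.prodMk (hd q h0 hq.1).continuousAt
    exact c.eventually ((F.triv y).open_target.mem_nhds (hq.2 _ hsq))
  filter_upwards [hu, e2, e3] with p h1 h2 h3
  exact FH.mk_symm (v := fun p : V × C2 => (1 - s p.1) • (F.triv y (u p)).2 + s p.1 • h p.1)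
    (hd p h1 h2) h3

end

theorem move896 (hM : StMerge) (hT : StTube) (hN : StNear) (hC : StClOpen) : StMove := by
  intro T E _ _ F V _ _ _ t₀ K hK g hg ℓ hℓ y h hh hsrc htgt η hη 𝒪 h𝒪
  classical
  have : ProperSpace V := FiniteDimensional.proper ℂ V
  obtain ⟨D, rfl, hKN⟩ := exists_tube hK hg
  obtain ⟨U, hUo, hKU, hU⟩ := mem_nhdsSet_iff_exists.1 hg
  have hU' : ∀ z ∈ U, FH F t₀ D.u₀ z := fun z hz => hU hz
  have hgc : ContinuousOn (fun z => ((z, D.u₀ z) : V × E)) U := fun z hz =>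
    (continuousAt_id.prodMk (hU' z hz).2.1).continuousWithinAt
  set P : Set (V × E) := PP F t₀ y h with hP
  set Z₁ : Set V := U ∩ (fun z => ((z, D.u₀ z) : V × E)) ⁻¹' interior P with hZ₁
  have hZ₁o : IsOpen Z₁ := hgc.isOpen_inter_preimage hUo isOpen_interior
  set Λ : V →L[ℝ] ℝ := Complex.reCLM.comp (ℓ.restrictScalars ℝ) with hΛ
  have hΛe : ∀ z, Λ z = (ℓ z).re := fun z => rfl
  -- the width of the slab
  obtain ⟨θ, hθ, hθη, hθK⟩ : ∃ θ > 0, θ ≤ η ∧ ∀ z ∈ K, 1 - θ ≤ Λ z → z ∈ Z₁ := by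
    have hCc : IsCompact (K \ Z₁) := hK.1.diff hZ₁o
    rcases (K \ Z₁).eq_empty_or_nonempty with he | hne
    · refine ⟨η, hη, le_rfl, fun z hz _ => ?_⟩
      by_contra h1
      have h2 : z ∈ K \ Z₁ := ⟨hz, h1⟩
      rw [he] at h2
      exact h2
    · obtain ⟨z₁, hz₁, hmax⟩ := hCc.exists_isMaxOn hne Λ.continuous.continuousOn
      have h1 : Λ z₁ < 1 := by
        refine lt_of_le_of_ne (hℓ z₁ hz₁.1) fun h1 => hz₁.2 ⟨hKU hz₁.1, ?_⟩
        exact mem_interior_iff_mem_nhds.2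
          (PP_nhds F hh.continuous ⟨hsrc z₁ hz₁.1 h1, htgt z₁ hz₁.1 h1⟩)
      refine ⟨min η ((1 - Λ z₁) / 2), lt_min hη (by linarith), min_le_left _ _,
        fun z hz h2 => ?_⟩
      by_contra h3
      have h4 : Λ z ≤ Λ z₁ := hmax ⟨hz, h3⟩
      have h5 : min η ((1 - Λ z₁) / 2) ≤ (1 - Λ z₁) / 2 := min_le_right _ _
      linarith
  -- a neighbourhood of `K`
  set Z : Set V := ((U ∩ Λ ⁻¹' Iio (1 - θ)) ∪ Z₁) ∩ ⋃ j, interior (D.N j) with hZ
  have hZo : IsOpen Z := ((hUo.inter (isOpen_Iio.preimage Λ.continuous)).union hZ₁o).inter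
    (isOpen_iUnion fun j => isOpen_interior)
  have hKZ : K ⊆ Z := by
    intro z hz
    refine ⟨?_, hKN hz⟩
    rcases lt_or_ge (Λ z) (1 - θ) with h1 | h1
    · exact Or.inl ⟨hKU hz, h1⟩
    · exact Or.inr (hθK z hz h1)
  obtain ⟨τ, hτ, hτZ⟩ := hK.1.exists_cthickening_subset_open hZo hKZ
  set Kp : Set V := cthickening τ K with hKp
  have gKp : Good Kp := ⟨hK.1.cthickening, hK.2.cthickening τ⟩
  have hKKp : K ⊆ Kp := self_subset_cthickening K
  have hKpN : Kp ⊆ ⋃ j, interior (D.N j) := fun z hz => (hτZ hz).2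
  have hKpP : ∀ z ∈ Kp, 1 - θ ≤ Λ z → P ∈ 𝓝 (z, D.u₀ z) := by
    intro z hz h1
    rcases (hτZ hz).1 with h2 | h2
    · exact absurd h2.2 (not_lt.2 h1)
    · exact mem_interior_iff_mem_nhds.1 h2.2
  -- the sets
  set A : Set (V × C2) := (K ∩ Λ ⁻¹' Ici (1 - 3 * θ / 4)) ×ˢ {(0 : C2)} with hA
  set B : Set (V × C2) := (K ∩ Λ ⁻¹' Iic (1 - θ / 2)) ×ˢ {(0 : C2)} with hB
  set O : Set (V × C2) := (thickening τ K ∩ Λ ⁻¹' Ioo (1 - θ) (1 - θ / 4)) ×ˢ ball (0 : C2) 1
    with hO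
  have gA : Good A :=
    ⟨(hK.1.inter_right (isClosed_Ici.preimage Λ.continuous)).prod isCompact_singleton,
      (hK.2.inter ((convex_Ici _).linear_preimage Λ.toLinearMap)).prod (convex_singleton _)⟩
  have gB : Good B :=
    ⟨(hK.1.inter_right (isClosed_Iic.preimage Λ.continuous)).prod isCompact_singleton,
      (hK.2.inter ((convex_Iic _).linear_preimage Λ.toLinearMap)).prod (convex_singleton _)⟩
  have hAB : A ∪ B = K ×ˢ {(0 : C2)} := by
    ext q
    constructor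
    · rintro (hq | hq)
      · exact ⟨hq.1.1, hq.2⟩
      · exact ⟨hq.1.1, hq.2⟩
    · intro hq
      rcases le_total (1 - 3 * θ / 4) (Λ q.1) with h1 | h1
      · exact Or.inl ⟨⟨hq.1, h1⟩, hq.2⟩
      · refine Or.inr ⟨⟨hq.1, ?_⟩, hq.2⟩
        rw [mem_preimage, mem_Iic]
        linarith
  have hconv : Convex ℝ (A ∪ B) := by
    rw [hAB]; exact hK.2.prod (convex_singleton _)
  have hOo : IsOpen O := (isOpen_thickening.inter (isOpen_Ioo.preimage Λ.continuous)).prod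
    isOpen_ball
  have hABO : A ∩ B ⊆ O := by
    intro q hq
    have h1 : 1 - 3 * θ / 4 ≤ Λ q.1 := hq.1.1.2
    have h2 : Λ q.1 ≤ 1 - θ / 2 := hq.2.1.2
    have h3 : q.2 = 0 := hq.1.2
    refine ⟨⟨self_subset_thickening hτ _ hq.1.1.1, ?_, ?_⟩, ?_⟩
    · linarith
    · linarith
    · rw [h3]; exact mem_ball_self one_pos
  have hOKp : ∀ q ∈ O, q.1 ∈ Kp := fun q hq => thickening_subset_cthickening _ _ hq.1.1
  have hON : ∀ q ∈ O, ∃ j, q.1 ∈ D.N j := by
    intro q hq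
    obtain ⟨j, hj⟩ := mem_iUnion.1 (hKpN (hOKp q hq))
    exact ⟨j, interior_subset hj⟩
  obtain ⟨δ, hδ, hmerge⟩ := hM T E F V t₀ D A B O gA gB hconv hOo hABO hON 1 one_pos 1 one_pos
  obtain ⟨r₀, hr₀, htube⟩ := hT T E F V t₀ D Kp gKp hKpN (min δ 1) (lt_min hδ one_pos)
  obtain ⟨r₁, hr₁, hnear₁⟩ := hN T E F V t₀ D Kp gKp.1 hKpN {q | 1 - θ ≤ Λ q.1 → q ∈ P} (by
    intro z hz
    rcases lt_or_ge (Λ z) (1 - θ) with h1 | h1
    · have h2 : ∀ᶠ q : V × E in 𝓝 (z, D.u₀ z), Λ q.1 < 1 - θ :=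
        (Λ.continuous.comp continuous_fst).continuousAt.eventually (Iio_mem_nhds h1)
      filter_upwards [h2] with q hq hq'
      exact absurd hq (not_lt.2 hq')
    · filter_upwards [hKpP z hz h1] with q hq _ using hq)
  obtain ⟨r₂, hr₂, hnear₂⟩ := hN T E F V t₀ D K hK.1 hKN 𝒪 h𝒪
  set r : ℝ := min r₀ (min r₁ r₂) / 2 with hr
  have hr0 : 0 < r := by positivity
  have hrl : r < min r₀ (min r₁ r₂) := half_lt_self (by positivity)
  have hrr₀ : r < r₀ := hrl.trans_le (min_le_left _ _)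
  have hrr₁ : r < r₁ := hrl.trans_le ((min_le_right _ _).trans (min_le_left _ _))
  have hrr₂ : r < r₂ := hrl.trans_le ((min_le_right _ _).trans (min_le_right _ _))
  obtain ⟨u₀, hu₀, hcl⟩ := htube r hr0 hrr₀
  have hu₀' : ∀ q ∈ Kp ×ˢ closedBall (0 : C2) 1, ∀ᶠ p in 𝓝 q, FH F t₀ u₀ p :=
    eventually_nhdsSet_iff_forall.1 hu₀
  have hp₀ : ∀ q ∈ Kp ×ˢ closedBall (0 : C2) 1, F.p (u₀ q) = t₀ := fun q hq =>
    (hu₀' q hq).self_of_nhds.1.self_of_nhds
  have hPq : ∀ q ∈ Kp ×ˢ closedBall (0 : C2) 1, 1 - θ ≤ Λ q.1 → (q.1, u₀ q) ∈ P := by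
    intro q hq h1
    exact hnear₁ r hr0 hrr₁ q.1 hq.1 q.2 (by simpa using hq.2) (u₀ q) (hp₀ q hq)
      (cl_mono D (min_le_right _ _) (hcl q hq)) h1
  -- closeness of the interpolation
  set Q : Set (V × C2) := (Kp ∩ Λ ⁻¹' Icc (1 - θ) (1 - θ / 4)) ×ˢ closedBall (0 : C2) 1 with hQ
  have hQc : IsCompact Q := (gKp.1.inter_right (isClosed_Icc.preimage Λ.continuous)).prod
    (isCompact_closedBall _ _)
  obtain ⟨δ', hδ', hcl'⟩ := Tube.exists_uniform hQc (0 : ℂ)
    {x : (V × C2) × ℂ | D.Cl δ r x.1 (Ph F t₀ y h u₀ x)} (by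
      intro q hq
      have hq' : q ∈ Kp ×ˢ closedBall (0 : C2) 1 := ⟨hq.1.1, hq.2⟩
      have h1 := hPq q hq' hq.1.2.1
      have h2 : Ph F t₀ y h u₀ (q, 0) = u₀ q := Ph_zero h1.1 (hp₀ q hq')
      have h3 := hC T E F V t₀ D δ r q (u₀ q) (cl_mono D (min_le_left _ _) (hcl q hq'))
      have h0 := (hu₀' q hq').self_of_nhds
      have c0 : ContinuousAt (fun p : V × C2 => (F.triv y (u₀ p)).2) q :=
        (h0.diff h1.1).continuousAt
      have c1 : ContinuousAt (fun x : (V × C2) × ℂ => (F.triv y (u₀ x.1)).2) (q, 0) :=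
        ContinuousAt.comp (g := fun p : V × C2 => (F.triv y (u₀ p)).2)
          (f := fun x : (V × C2) × ℂ => x.1) (x := (q, 0)) c0 continuousAt_fst
      have c2 : ContinuousAt (fun x : (V × C2) × ℂ => h x.1.1) (q, 0) :=
        (hh.continuous.comp (continuous_fst.comp continuous_fst)).continuousAt
      have c3 : ContinuousAt (fun x : (V × C2) × ℂ =>
          ((t₀, (1 - x.2) • (F.triv y (u₀ x.1)).2 + x.2 • h x.1.1) : T × C2)) (q, 0) :=
        continuousAt_const.prodMk (((continuousAt_const.sub continuousAt_snd).smul c1).add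
          (continuousAt_snd.smul c2))
      have c4 : ContinuousAt (Ph F t₀ y h u₀) (q, 0) := by
        refine ContinuousAt.comp (g := (F.triv y).symm) (f := fun x : (V × C2) × ℂ =>
          ((t₀, (1 - x.2) • (F.triv y (u₀ x.1)).2 + x.2 • h x.1.1) : T × C2)) (x := (q, 0)) ?_ c3
        exact (F.triv y).continuousAt_symm (h1.2 0 (by simp))
      have c5 : ContinuousAt (fun x : (V × C2) × ℂ =>
          ((x.1, Ph F t₀ y h u₀ x) : (V × C2) × E)) (q, 0) := continuousAt_fst.prodMk c4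
      have c6 : Tendsto (fun x : (V × C2) × ℂ => ((x.1, Ph F t₀ y h u₀ x) : (V × C2) × E))
          (𝓝 (q, 0)) (𝓝 (q, u₀ q)) := by
        have c7 := c5.tendsto
        simp only [h2] at c7
        exact c7
      exact c6.eventually h3)
  -- the peak function
  obtain ⟨N, hN0, hNδ⟩ : ∃ N : ℝ, 0 ≤ N ∧ Real.exp (-(N * (θ / 4))) ≤ δ' := by
    refine ⟨max 0 (-Real.log δ' / (θ / 4)), le_max_left _ _, ?_⟩
    rw [← Real.le_log_iff_exp_le hδ']
    have h1 : -Real.log δ' / (θ / 4) ≤ max 0 (-Real.log δ' / (θ / 4)) := le_max_right _ _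
    rw [div_le_iff₀ (by positivity)] at h1
    linarith
  set s : V → ℂ := fun z => Complex.exp ((N : ℂ) * (ℓ z - 1)) with hs
  have hsd : Differentiable ℂ s := by
    have h1 : Differentiable ℂ (fun z : V => ℓ z) := ℓ.differentiable
    exact ((h1.sub_const 1).const_mul (N : ℂ)).cexp
  have hsn : ∀ z, ‖s z‖ = Real.exp (N * (Λ z - 1)) := by
    intro z
    simp only [hs, Complex.norm_exp, hΛe]
    congr 1
    rw [Complex.re_ofReal_mul, Complex.sub_re, Complex.one_re]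
  have hs1 : ∀ z, Λ z ≤ 1 → ‖s z‖ ≤ 1 := by
    intro z hz
    rw [hsn, Real.exp_le_one_iff]
    exact mul_nonpos_of_nonneg_of_nonpos hN0 (by linarith)
  have hs2 : ∀ z, Λ z ≤ 1 - θ / 4 → ‖s z‖ ≤ δ' := by
    intro z hz
    rw [hsn]
    refine (Real.exp_le_exp.2 ?_).trans hNδ
    nlinarith
  set u : V × C2 → E := fun q => Ph F t₀ y h u₀ (q, s q.1) with hu
  set A' : Set (V × C2) := O ∪ (K ∩ Λ ⁻¹' Ici (1 - 3 * θ / 4)) ×ˢ closedBall (0 : C2) 1 with hA'
  set B' : Set (V × C2) := Kp ×ˢ closedBall (0 : C2) 1 with hB'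
  have hOB : O ⊆ B' := fun q hq => ⟨hOKp q hq, ball_subset_closedBall hq.2⟩
  have huA : ∀ᶠ q in 𝓝ˢ A', FH F t₀ u q := by
    rw [eventually_nhdsSet_iff_forall]
    rintro q (hq | hq)
    · have h1 : 1 - θ < Λ q.1 := hq.1.2.1
      have h2 : Λ q.1 < 1 - θ / 4 := hq.1.2.2
      exact Ph_FH hh hsd (hu₀' q (hOB hq)) (hPq q (hOB hq) h1.le) (hs1 _ (by linarith))
    · have h1 : 1 - 3 * θ / 4 ≤ Λ q.1 := hq.1.2
      have hq' : q ∈ Kp ×ˢ closedBall (0 : C2) 1 := ⟨hKKp hq.1.1, hq.2⟩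
      exact Ph_FH hh hsd (hu₀' q hq') (hPq q hq' (by linarith)) (hs1 _ (hℓ q.1 hq.1.1))
  obtain ⟨v, hv1, hvA, hvB⟩ := hmerge r t₀ A' B' u u₀ hr0 subset_union_left hOB
    (by
      intro q hq c hc
      refine Or.inr ⟨hq.1, ?_⟩
      have h3 : q.2 = 0 := hq.2
      rw [sh_snd, h3, zero_add, mem_closedBall_zero_iff]
      exact hc.le)
    (by
      intro q hq c hc
      refine ⟨hKKp hq.1.1, ?_⟩
      have h3 : q.2 = 0 := hq.2
      rw [sh_snd, h3, zero_add, mem_closedBall_zero_iff]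
      exact hc.le)
    huA hu₀
    (by
      intro q hq
      have h1 : 1 - θ < Λ q.1 := hq.1.2.1
      have h2 : Λ q.1 < 1 - θ / 4 := hq.1.2.2
      refine hcl' q ⟨⟨hOKp q hq, h1.le, h2.le⟩, ball_subset_closedBall hq.2⟩ (s q.1) ?_
      rw [dist_zero_right]
      exact hs2 _ h2.le)
    (fun q hq => cl_mono D (min_le_left _ _) (hcl q (hOB hq)))
  rw [hAB] at hv1
  refine ⟨fun z => v (z, 0), ?_, ?_, ?_⟩
  · rw [eventually_nhdsSet_iff_forall]
    intro z hz
    have hc : Continuous fun z : V => ((z, 0) : V × C2) := by fun_prop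
    have h3 : ∀ᶠ q in 𝓝 ((z, 0) : V × C2), FH F t₀ v q :=
      (eventually_nhdsSet_iff_forall.1 hv1) _ ⟨hz, rfl⟩
    filter_upwards [hc.continuousAt.eventually h3] with x hx
    exact FH.comp (u := v) (q := fun z : V => ((z, 0) : V × C2)) hx (by fun_prop)
  · intro z hz h1
    have h2 : ((z, 0) : V × C2) ∈ B := by
      refine ⟨⟨hz, ?_⟩, rfl⟩
      change Λ z ≤ 1 - θ / 2
      rw [hΛe]
      linarith
    obtain ⟨c, hc, hvc⟩ := hvB _ h2
    have h3 : sh ((z, 0) : V × C2) c = (z, c) := by simp [sh]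
    have h4 : ((z, c) : V × C2) ∈ Kp ×ˢ closedBall (0 : C2) 1 :=
      ⟨hKKp hz, mem_closedBall_zero_iff.2 hc.le⟩
    simp only
    rw [hvc, h3]
    exact hnear₂ r hr0 hrr₂ z hz c hc.le _ (hp₀ _ h4)
      (cl_mono D (min_le_right _ _) (hcl _ h4))
  · intro z hz h1
    have h2 : ((z, 0) : V × C2) ∈ A := by
      refine ⟨⟨hz, ?_⟩, rfl⟩
      change 1 - 3 * θ / 4 ≤ Λ z
      rw [hΛe, h1, Complex.one_re]
      linarith
    obtain ⟨c, hc, hvc⟩ := hvA _ h2
    have h3 : s z = 1 := by simp only [hs, h1, sub_self, mul_zero, Complex.exp_zero]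
    simp only
    rw [hvc]
    simp only [hu, Ph, sh_fst, h3, sub_self, zero_smul, one_smul, zero_add]

end Vale.Agent.P290.R2.H596
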