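import Vale.Agent.P290.H805.Baire

/-! Interpolation by holomorphic maps from large balls to surfaces whose deformation orbit
accumulates at a compact connected Oka surface: the statements of the steps. -/

open Set Filter Metric
open scoped Topology

namespace Vale.Agent.P290.R2.H596

open Vale.Agent.P290 Vale.Agent.P290.K Vale.Agent.P290.H580 Vale.Agent.P290.H805

/-- R1: gluing of two maps which are close to the same etale tube over the overlap only -/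
def StMerge : Prop :=
  ∀ (T E : Type) [TopologicalSpace T] [TopologicalSpace E] (F : Family T E)
    (V : Type) [NormedAddCommGroup V] [NormedSpace ℂ V] [FiniteDimensional ℂ V] (t₀ : T)
    (D : Tube F V t₀) (A B O : Set (V × C2)), Good A → Good B → Convex ℝ (A ∪ B) → IsOpen O →
    A ∩ B ⊆ O → (∀ y ∈ O, ∃ j, y.1 ∈ D.N j) → ∀ σ > (0 : ℝ), ∀ ε > (0 : ℝ), ∃ δ > (0 : ℝ),
    ∀ (r : ℝ) (t : T) (A' B' : Set (V × C2)) (u u' : V × C2 → E), 0 < r → O ⊆ A' → O ⊆ B' →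
      (∀ y ∈ A, ∀ c : C2, ‖c‖ < σ → sh y c ∈ A') → (∀ y ∈ B, ∀ c : C2, ‖c‖ < σ → sh y c ∈ B') →
      (∀ᶠ y in 𝓝ˢ A', FH F t u y) → (∀ᶠ y in 𝓝ˢ B', FH F t u' y) →
      (∀ y ∈ O, D.Cl δ r y (u y)) → (∀ y ∈ O, D.Cl δ r y (u' y)) →
      ∃ v : V × C2 → E, (∀ᶠ y in 𝓝ˢ (A ∪ B), FH F t v y) ∧
        (∀ y ∈ A, ∃ c : C2, ‖c‖ < ε ∧ v y = u (sh y c)) ∧
        ∀ y ∈ B, ∃ c : C2, ‖c‖ < ε ∧ v y = u' (sh y c)

/-- R2a: etale tubes -/
def StTube : Prop :=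
  ∀ (T E : Type) [TopologicalSpace T] [TopologicalSpace E] (F : Family T E)
    (V : Type) [NormedAddCommGroup V] [NormedSpace ℂ V] [FiniteDimensional ℂ V] (t₀ : T)
    (D : Tube F V t₀) (K : Set V), Good K → K ⊆ ⋃ j, interior (D.N j) → ∀ ε > (0 : ℝ),
    ∃ r₀ > (0 : ℝ), ∀ r, 0 < r → r < r₀ → ∃ u : V × C2 → E,
      (∀ᶠ y in 𝓝ˢ (K ×ˢ closedBall (0 : C2) 1), FH F t₀ u y) ∧
        ∀ y ∈ K ×ˢ closedBall (0 : C2) 1, D.Cl ε r y (u y)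

/-- R2b: small tubes are near the graph -/
def StNear : Prop :=
  ∀ (T E : Type) [TopologicalSpace T] [TopologicalSpace E] (F : Family T E)
    (V : Type) [NormedAddCommGroup V] [NormedSpace ℂ V] [FiniteDimensional ℂ V] (t₀ : T)
    (D : Tube F V t₀) (K : Set V), IsCompact K → K ⊆ ⋃ j, interior (D.N j) →
    ∀ 𝒪 : Set (V × E), (∀ z ∈ K, 𝒪 ∈ 𝓝 (z, D.u₀ z)) →
    ∃ r₁ > (0 : ℝ), ∀ r, 0 < r → r < r₁ → ∀ z ∈ K, ∀ w : C2, ‖w‖ ≤ 1 → ∀ x : E, F.p x = t₀ →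
      D.Cl 1 r (z, w) x → (z, x) ∈ 𝒪

/-- R2c: closeness is an open condition -/
def StClOpen : Prop :=
  ∀ (T E : Type) [TopologicalSpace T] [TopologicalSpace E] (F : Family T E)
    (V : Type) [NormedAddCommGroup V] [NormedSpace ℂ V] (t₀ : T) (D : Tube F V t₀) (δ r : ℝ)
    (q : V × C2) (x : E), D.Cl δ r q x → {p : (V × C2) × E | D.Cl δ r p.1 p.2} ∈ 𝓝 (q, x)

/-- R3: moving the values of a map at the point where the linear form `ℓ` is one -/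
def StMove : Prop :=
  ∀ (T E : Type) [TopologicalSpace T] [TopologicalSpace E] (F : Family T E)
    (V : Type) [NormedAddCommGroup V] [NormedSpace ℂ V] [FiniteDimensional ℂ V] (t₀ : T)
    (K : Set V), Good K → ∀ g : V → E, (∀ᶠ z in 𝓝ˢ K, FH F t₀ g z) → ∀ ℓ : V →L[ℂ] ℂ,
    (∀ z ∈ K, (ℓ z).re ≤ 1) → ∀ (y : E) (h : V → C2), Differentiable ℂ h →
    (∀ z ∈ K, (ℓ z).re = 1 → g z ∈ (F.triv y).source) →
    (∀ z ∈ K, (ℓ z).re = 1 → ∀ s : ℂ, ‖s‖ ≤ 1 →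
      (t₀, (1 - s) • (F.triv y (g z)).2 + s • h z) ∈ (F.triv y).target) →
    ∀ η > (0 : ℝ), ∀ 𝒪 : Set (V × E), (∀ z ∈ K, 𝒪 ∈ 𝓝 (z, g z)) →
    ∃ g' : V → E, (∀ᶠ z in 𝓝ˢ K, FH F t₀ g' z) ∧
      (∀ z ∈ K, (ℓ z).re ≤ 1 - η → (z, g' z) ∈ 𝒪) ∧
      ∀ z ∈ K, ℓ z = 1 → g' z = (F.triv y).symm (t₀, h z)

/-- Holomorphic families, with parameter in `(ℂ²)^k`, of maps from the closed unit disc to the fibre
over `t₀`, with values near `H j w` at the node `n j`. -/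
def GG {T E : Type} [TopologicalSpace T] [TopologicalSpace E] (F : Family T E) (t₀ : T) {k : ℕ}
    (n : Fin k → ℂ) (H : Fin k → (Fin k → C2) → E) : Prop :=
  ∃ ρ₀ > (0 : ℝ), ∀ ρ, 0 < ρ → ρ ≤ ρ₀ → ∀ 𝒪 : Fin k → Set ((Fin k → C2) × E),
    (∀ j, ∀ w ∈ closedBall (0 : Fin k → C2) ρ, 𝒪 j ∈ 𝓝 (w, H j w)) →
    ∃ u : ℂ × (Fin k → C2) → E,
      (∀ᶠ z in 𝓝ˢ (closedBall (0 : ℂ) 1 ×ˢ closedBall (0 : Fin k → C2) ρ), FH F t₀ u z) ∧
        ∀ j, ∀ w ∈ closedBall (0 : Fin k → C2) ρ, (w, u (n j, w)) ∈ 𝒪 j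

/-- R4a: one step -/
def StStep : Prop :=
  ∀ (T E : Type) [TopologicalSpace T] [TopologicalSpace E] (F : Family T E) (t₀ : T) (k : ℕ)
    (n : Fin k → ℂ), (∀ j, ‖n j‖ = 1) → Function.Injective n →
    ∀ (H : Fin k → (Fin k → C2) → E), GG F t₀ n H → ∀ (j : Fin k) (y : E) (a : C2) (R : ℝ), 0 < R →
    (∀ v ∈ ball a (3 * R), (t₀, v) ∈ (F.triv y).target) → ContinuousAt (H j) 0 →
    H j 0 ∈ (F.triv y).source → (F.triv y (H j 0)).2 ∈ ball a R →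
    ∀ h : (Fin k → C2) → C2, Differentiable ℂ h → h 0 ∈ ball a R →
    GG F t₀ n (Function.update H j (fun w => (F.triv y).symm (t₀, h w)))

/-- R4b: arbitrary values at the nodes, and all nearby values -/
def StLocal : Prop :=
  ∀ (T E : Type) [TopologicalSpace T] [TopologicalSpace E] (F : Family T E) (t₀ : T)
    [ConnectedSpace (Fib F t₀)] (k : ℕ) (n : Fin k → ℂ), (∀ j, ‖n j‖ = 1) →
    Function.Injective n → ∀ x : Fin k → E, (∀ j, F.p (x j) = t₀) →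
    GG F t₀ n fun j w => (F.triv (x j)).symm (t₀, (F.triv (x j) (x j)).2 + w j)

/-- R5: the Oka property on an arbitrary finite-dimensional space -/
def StOka : Prop :=
  ∀ (T E : Type) [TopologicalSpace T] [TopologicalSpace E] (F : Family T E) (t₀ : T)
    [T2Space (Fib F t₀)] [CompactSpace (Fib F t₀)], All.IsOka (Fib F t₀) →
    ∀ (V : Type) [NormedAddCommGroup V] [NormedSpace ℂ V] [FiniteDimensional ℂ V] [Nontrivial V]
    (K : Set V), Good K → K.Nonempty → ∀ u : V → E, (∀ᶠ z in 𝓝ˢ K, FH F t₀ u z) →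
    ∀ 𝒪 : Set (V × E), (∀ z ∈ K, 𝒪 ∈ 𝓝 (z, u z)) →
    ∃ G : V → E, (∀ z, FH F t₀ G z) ∧ ∀ z ∈ K, (z, G z) ∈ 𝒪

/-- R6a: a map which is close to the identity takes all small values -/
def StSurj : Prop :=
  ∀ (W : Type) [NormedAddCommGroup W] [NormedSpace ℂ W] [FiniteDimensional ℂ W] (φ : W → W)
    (ρ : ℝ), 0 < ρ → (∀ w ∈ ball (0 : W) ρ, DifferentiableAt ℂ φ w) →
    (∀ w ∈ ball (0 : W) ρ, ‖φ w - w‖ ≤ ρ / 8) → ∀ b : W, ‖b‖ ≤ ρ / 4 →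
    ∃ w ∈ ball (0 : W) ρ, φ w = b

/-- R6b: interpolation by scalar functions -/
def StInterp : Prop :=
  ∀ (m k : ℕ) (z : Fin k → Fin m → ℂ), Function.Injective z → ∀ c : Fin k → ℂ,
    ∃ P : (Fin m → ℂ) → ℂ, Differentiable ℂ P ∧ ∀ j, P (z j) = c j

/-- R6c: interpolation near a given tuple of points of the central fibre -/
def StNearby : Prop :=
  ∀ (T E : Type) [TopologicalSpace T] [TopologicalSpace E] (F : Family T E) (t₀ : T)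
    [T2Space (Fib F t₀)] [CompactSpace (Fib F t₀)] [ConnectedSpace (Fib F t₀)],
    All.IsOka (Fib F t₀) → ∀ (m k : ℕ) (z : Fin (k + 1) → Fin m → ℂ), Function.Injective z →
    ∀ ρ : ℝ, ∀ x : Fin (k + 1) → E, (∀ j, F.p (x j) = t₀) →
    ∀ᶠ x' in 𝓝 x, ∀ t, (∀ j, F.p (x' j) = t) → ∃ g : (Fin m → ℂ) → E,
      (∀ y ∈ closedBall (0 : Fin m → ℂ) ρ, FH F t g y) ∧ ∀ j, g (z j) = x' j

/-- R6d: the theorem for the fibres -/
def StFibres : Prop :=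
  ∀ (T E : Type) [TopologicalSpace T] [TopologicalSpace E] (F : Family T E), IsProperMap F.p →
    ∀ t₀ : T, T2Space (Fib F t₀) → ConnectedSpace (Fib F t₀) → All.IsOka (Fib F t₀) →
    ∀ (m k : ℕ) (z : Fin (k + 1) → Fin m → ℂ), Function.Injective z → ∀ ρ : ℝ,
    ∀ᶠ t in 𝓝 t₀, ∀ x : Fin (k + 1) → E, (∀ j, F.p (x j) = t) → ∃ g : (Fin m → ℂ) → E,
      (∀ y ∈ closedBall (0 : Fin m → ℂ) ρ, FH F t g y) ∧ ∀ j, g (z j) = x j

end Vale.Agent.P290.R2.H596
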