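import Vale.Agent.P290.R2.H596.Spec

/-! Interpolation with prescribed Jacobian determinants: the statements of the steps. -/

open Set Filter Metric
open scoped Topology

namespace Vale.Agent.P290.R2.H596

open Vale.Agent.P290 Vale.Agent.P290.K Vale.Agent.P290.H580 Vale.Agent.P290.H805

/-- `vol x (t, w) dw₁ ∧ dw₂` is a nowhere vanishing relative two-form of the family `F`, holomorphic
on the fibres and continuous. -/
def RelForm {T E : Type} [TopologicalSpace T] [TopologicalSpace E] (F : Family T E)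
    (vol : E → T × C2 → ℂ) : Prop :=
  ∀ (x : E) (t : T) (w : C2), (t, w) ∈ (F.triv x).target →
    ContinuousAt (vol x) (t, w) ∧ DifferentiableAt ℂ (fun u => vol x (t, u)) w ∧
      vol x (t, w) ≠ 0 ∧
      ∀ x' : E, (F.triv x).symm (t, w) ∈ (F.triv x').source →
        vol x (t, w) = vol x' (t, (F.triv x' ((F.triv x).symm (t, w))).2) *
          (fderiv ℂ (fun u => (F.triv x' ((F.triv x).symm (t, u))).2) w).det

/-- the value at `z` of the pull back of the two-form under `g`, divided by `dz₁ ∧ dz₂` -/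
noncomputable def jac {T E : Type} [TopologicalSpace T] [TopologicalSpace E] (F : Family T E)
    (vol : E → T × C2 → ℂ) (t : T) (g : C2 → E) (z : C2) : ℂ :=
  vol (g z) (t, (F.triv (g z) (g z)).2) * (fderiv ℂ (fun y => (F.triv (g z) (g y)).2) z).det

/-- J0: the determinant may be computed in any trivialisation -/
def StJac : Prop :=
  ∀ (T E : Type) [TopologicalSpace T] [TopologicalSpace E] (F : Family T E)
    (vol : E → T × C2 → ℂ), RelForm F vol → ∀ (t : T) (g : C2 → E) (z : C2) (x : E),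
    FH F t g z → g z ∈ (F.triv x).source →
    jac F vol t g z = vol x (t, (F.triv x (g z)).2) *
      (fderiv ℂ (fun y => (F.triv x (g y)).2) z).det

/-- J1: interpolation of bounded 1-jets near a given tuple of points of the central fibre -/
def StNearbyJet : Prop :=
  ∀ (T E : Type) [TopologicalSpace T] [TopologicalSpace E] (F : Family T E) (t₀ : T)
    [T2Space (Fib F t₀)] [CompactSpace (Fib F t₀)] [ConnectedSpace (Fib F t₀)],
    All.IsOka (Fib F t₀) → ∀ (V : Type) [NormedAddCommGroup V] [NormedSpace ℂ V]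
    [FiniteDimensional ℂ V] (k : ℕ) (z : Fin (k + 1) → V), Function.Injective z →
    ∀ ρ Λ : ℝ, ∀ x : Fin (k + 1) → E, (∀ j, F.p (x j) = t₀) →
    ∀ᶠ x' in 𝓝 x, ∀ t, (∀ j, F.p (x' j) = t) → ∀ L : Fin (k + 1) → V →L[ℂ] C2,
      (∀ j, ‖L j‖ ≤ Λ) → ∃ g : V → E, (∀ y ∈ closedBall (0 : V) ρ, FH F t g y) ∧
        ∀ j, FH F t g (z j) ∧ g (z j) = x' j ∧ g (z j) ∈ (F.triv (x j)).source ∧
          HasFDerivAt (fun y => (F.triv (x j) (g y)).2) (L j) (z j)

/-- J2: interpolation with prescribed determinants in all fibres near an Oka fibre -/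
def StFibresJet : Prop :=
  ∀ (T E : Type) [TopologicalSpace T] [TopologicalSpace E] (F : Family T E), IsProperMap F.p →
    ∀ vol : E → T × C2 → ℂ, RelForm F vol →
    ∀ t₀ : T, T2Space (Fib F t₀) → ConnectedSpace (Fib F t₀) → All.IsOka (Fib F t₀) →
    ∀ (k : ℕ) (z : Fin (k + 1) → C2), Function.Injective z → ∀ ρ Λ : ℝ,
    ∀ᶠ t in 𝓝 t₀, ∀ x : Fin (k + 1) → E, (∀ j, F.p (x j) = t) → ∀ d : Fin (k + 1) → ℂ,
      (∀ j, ‖d j‖ ≤ Λ) → ∃ g : C2 → E, (∀ y ∈ closedBall (0 : C2) ρ, FH F t g y) ∧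
        ∀ j, FH F t g (z j) ∧ g (z j) = x j ∧ jac F vol t g (z j) = d j

/-- `lam` is the ratio at `y` of the pull back of the two-form of the K3 surface `X` and the
two-form of the fibre -/
def Ratio {T E : Type} [TopologicalSpace T] [TopologicalSpace E] (F : Family T E)
    (vol : E → T × C2 → ℂ) (t : T) (X : All.K3) (b : Fib F t → X.X) (y : Fib F t)
    (lam : ℂ) : Prop :=
  X.vol (chartAt C2 (b y)) (chartAt C2 (b y) (b y)) *
      (fderiv ℂ (fun w => chartAt C2 (b y) (b ((chartAt C2 y).symm w))) (chartAt C2 y y)).det =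
    lam * vol y.1 (t, (F.triv y.1 y.1).2)

/-- J3: the ratio is constant -/
def StConst : Prop :=
  ∀ (T E : Type) [TopologicalSpace T] [TopologicalSpace E] (F : Family T E)
    (vol : E → T × C2 → ℂ), RelForm F vol → ∀ t, CompactSpace (Fib F t) →
    ConnectedSpace (Fib F t) → ∀ (X : All.K3) (b : Fib F t → X.X), (∀ y, All.Hol b y) →
    ∃ lam : ℂ, ∀ y, Ratio F vol t X b y lam

/-- J4: the ratio is bounded below (comparison of volumes) -/
def StLower : Prop :=
  ∀ (T E : Type) [TopologicalSpace T] [TopologicalSpace E] (F : Family T E), IsProperMap F.p →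
    ∀ vol : E → T × C2 → ℂ, RelForm F vol → ∀ (t₀ : T) (X : All.K3), ∃ c > (0 : ℝ),
    ∀ᶠ t in 𝓝 t₀, ∀ b : Fib F t → X.X, (∀ y, All.Hol b y) → Function.Surjective b →
      ∀ lam : ℂ, (∀ y, Ratio F vol t X b y lam) → c ≤ ‖lam‖

/-- J5: composition with a holomorphic map to a K3 surface -/
def StComp : Prop :=
  ∀ (T E : Type) [TopologicalSpace T] [TopologicalSpace E] (F : Family T E)
    (vol : E → T × C2 → ℂ), RelForm F vol → ∀ (t : T) (X : All.K3) (b : Fib F t → X.X),
    (∀ y, All.Hol b y) → ∀ lam : ℂ, (∀ y, Ratio F vol t X b y lam) →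
    ∀ (G : C2 → Fib F t) (z : C2), FH F t (fun y => (G y).1) z →
      All.Hol (fun y => b (G y)) z ∧
      X.vol (chartAt C2 (b (G z))) (chartAt C2 (b (G z)) (b (G z))) *
        (fderiv ℂ (fun y => chartAt C2 (b (G z)) (b (G y))) z).det =
        lam * jac F vol t (fun y => (G y).1) z

end Vale.Agent.P290.R2.H596
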