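import Vale.Agent.P290.R2.H596.Spec2

/-! Volume preserving local biholomorphisms from large polydiscs: the statements of the steps.
Note that the norm of `C2 = ℂ × ℂ` is the maximum norm: balls are polydiscs. -/

open Set Filter Metric
open scoped Topology

namespace Vale.Agent.P290.R2.H596

open Vale.Agent.P290 Vale.Agent.P290.K Vale.Agent.P290.H580 Vale.Agent.P290.H805

/-- there is a map from the polydisc of radius `R` to the fibre over `t`, sending `0` to `x` and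
pulling back the two-form to `dz₁ ∧ dz₂` -/
def SB {T E : Type} [TopologicalSpace T] [TopologicalSpace E] (F : Family T E)
    (vol : E → T × C2 → ℂ) (t : T) (x : E) (R : ℝ) : Prop :=
  ∃ g : C2 → E, g 0 = x ∧ ∀ y ∈ closedBall (0 : C2) R, FH F t g y ∧ jac F vol t g y = 1

/-- S1: the Jacobian depends continuously on the map and the parameter -/
def StJacClose : Prop :=
  ∀ (T E : Type) [TopologicalSpace T] [TopologicalSpace E] (F : Family T E)
    (vol : E → T × C2 → ℂ), RelForm F vol → ∀ (t₀ : T) (g₀ : C2 → E) (R₀ R₁ : ℝ), R₀ < R₁ →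
    (∀ y ∈ closedBall (0 : C2) R₁, FH F t₀ g₀ y) → ∀ ε > (0 : ℝ),
    ∃ 𝒪 : Set (C2 × E), (∀ z ∈ closedBall (0 : C2) R₁, 𝒪 ∈ 𝓝 (z, g₀ z)) ∧
      ∀ᶠ t in 𝓝 t₀, ∀ u : C2 → E, (∀ y ∈ closedBall (0 : C2) R₁, FH F t u y) →
        (∀ y ∈ closedBall (0 : C2) R₁, (y, u y) ∈ 𝒪) →
        ∀ y ∈ closedBall (0 : C2) R₀, ‖jac F vol t u y - jac F vol t₀ g₀ y‖ < ε

/-- S2: a two-form close to the standard one is standard after a change of coordinates -/
def StFlat : Prop :=
  ∀ R R₁ : ℝ, 0 < R → R < R₁ → ∃ ε > (0 : ℝ), ∀ J : C2 → ℂ,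
    (∀ y ∈ ball (0 : C2) R₁, DifferentiableAt ℂ J y ∧ ‖J y - 1‖ ≤ ε) →
    ∃ ψ : C2 → C2, ψ 0 = 0 ∧ ∀ y ∈ closedBall (0 : C2) R, DifferentiableAt ℂ ψ y ∧
      ψ y ∈ ball (0 : C2) R₁ ∧ J (ψ y) * (fderiv ℂ ψ y).det = 1

/-- S3: the property is open in the point and the parameter -/
def StSymNear : Prop :=
  ∀ (T E : Type) [TopologicalSpace T] [TopologicalSpace E] (F : Family T E)
    (vol : E → T × C2 → ℂ), RelForm F vol → ∀ (t₀ : T) (x₀ : E), F.p x₀ = t₀ → ∀ R > (0 : ℝ),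
    SB F vol t₀ x₀ (R + 1) → ∀ᶠ x in 𝓝 x₀, SB F vol (F.p x) x R

/-- S4: proper families -/
def StSymFibres : Prop :=
  ∀ (T E : Type) [TopologicalSpace T] [TopologicalSpace E] (F : Family T E), IsProperMap F.p →
    ∀ vol : E → T × C2 → ℂ, RelForm F vol → ∀ t₀ : T,
    (∀ x, F.p x = t₀ → ∀ R > (0 : ℝ), SB F vol t₀ x R) → ∀ R > (0 : ℝ),
    ∀ᶠ t in 𝓝 t₀, ∀ x, F.p x = t → SB F vol t x R

/-- S5: surfaces with holomorphic maps to Riemann surfaces without common critical point have the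
property, by the flows of the Hamiltonian vector fields of these maps -/
def StSymExist : Prop :=
  ∀ (T E : Type) [TopologicalSpace T] [TopologicalSpace E] (F : Family T E)
    (vol : E → T × C2 → ℂ), RelForm F vol → ∀ t₀ : T, T2Space (Fib F t₀) →
    CompactSpace (Fib F t₀) → ∀ x : Fib F t₀,
    (∃ (C : All.RS) (π : Fib F t₀ → C.C), (∀ y, All.HolC π y) ∧ ¬ All.Critical π x) →
    ∀ R > (0 : ℝ), SB F vol t₀ x.1 R

end Vale.Agent.P290.R2.H596
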